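import Crest.Agent.R110.Quot

/-!
# Row 110: purely infinite context, generated ideals, low ideals
-/

set_option autoImplicit false

open Set Filter Topology

namespace Crest.Agent.R110

/-- a two-sided ideal `C` of a unital C⋆-algebra all of whose `z⋆z` are properly infinite -/
structure Ctx (B : Type*) [CStarAlgebra B] where
  C : Set B
  zero_mem : (0 : B) ∈ C
  add_mem : ∀ {x y : B}, x ∈ C → y ∈ C → x + y ∈ C
  mul_left : ∀ (b : B) {x : B}, x ∈ C → b * x ∈ C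
  mul_right : ∀ (b : B) {x : B}, x ∈ C → x * b ∈ C
  pi : ∀ z ∈ C, ∀ ε > 0, ∃ r s : B, ‖star (z * r) * (z * r) - star z * z‖ ≤ ε ∧
    ‖star (z * s) * (z * s) - star z * z‖ ≤ ε ∧ ‖star (z * r) * (z * s)‖ ≤ ε

variable {B : Type*} [CStarAlgebra B]

lemma norm_star_mul_sub_le (u z : B) : ‖star u * u - star z * z‖ ≤ ‖u - z‖ * (‖u‖ + ‖z‖) := by
  have : star u * u - star z * z = star (u - z) * u + star z * (u - z) := by
    simp only [star_sub]; noncomm_ring
  rw [this]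
  have h1 := norm_add_le (star (u - z) * u) (star z * (u - z))
  have h2 := norm_mul_le (star (u - z)) u
  have h3 := norm_mul_le (star z) (u - z)
  rw [norm_star] at h2 h3
  linarith

lemma norm_conj_le (u T v : B) : ‖star u * T * v‖ ≤ ‖u‖ * ‖T‖ * ‖v‖ := by
  have := nmul_le (nmul_le (le_refl ‖star u‖) (le_refl ‖T‖)) (le_refl ‖v‖)
  rwa [norm_star] at this

namespace Ctx

variable (P : Ctx B)

lemma smul_mem (r : ℝ) {x : B} (hx : x ∈ P.C) : r • x ∈ P.C := by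
  rw [smul_eq_mul_l]; exact P.mul_left _ hx

lemma sub_mem {x y : B} (hx : x ∈ P.C) (hy : y ∈ P.C) : x - y ∈ P.C := by
  have := P.add_mem hx (P.mul_left (-1) hy)
  simpa [sub_eq_add_neg] using this

lemma mem_of_Sp {a x : B} (ha : IsSelfAdjoint a) (haC : a ∈ P.C) {s : ℝ} (hs : 0 < s)
    (hx : x ∈ Sp a (Ici s)) : x ∈ P.C := by
  obtain ⟨y, rfl⟩ := Sp_Ici_eq_mul ha hs hx
  exact P.mul_right _ haC

lemma rp_mem_C {a : B} (ha : IsSelfAdjoint a) (haC : a ∈ P.C) {s t : ℝ} (hs : 0 < s) (h : s < t) :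
    rp a s t ∈ P.C := P.mem_of_Sp ha haC hs (rp_mem a h)

/-- image of the context in a quotient -/
noncomputable def map (J : CI B) : Ctx J.Q where
  C := J.π '' P.C
  zero_mem := ⟨0, P.zero_mem, map_zero _⟩
  add_mem := by
    rintro _ _ ⟨x, hx, rfl⟩ ⟨y, hy, rfl⟩
    exact ⟨x + y, P.add_mem hx hy, map_add _ _ _⟩
  mul_left := by
    rintro b _ ⟨x, hx, rfl⟩
    obtain ⟨b, rfl⟩ := J.π_surj b
    exact ⟨b * x, P.mul_left b hx, map_mul _ _ _⟩
  mul_right := by
    rintro b _ ⟨x, hx, rfl⟩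
    obtain ⟨b, rfl⟩ := J.π_surj b
    exact ⟨x * b, P.mul_right b hx, map_mul _ _ _⟩
  pi := by
    rintro _ ⟨z, hz, rfl⟩ ε hε
    obtain ⟨r, s, h1, h2, h3⟩ := P.pi z hz ε hε
    refine ⟨J.π r, J.π s, ?_, ?_, ?_⟩
    · simpa [map_star] using (J.norm_π_le _).trans h1
    · simpa [map_star] using (J.norm_π_le _).trans h2
    · simpa [map_star] using (J.norm_π_le _).trans h3

lemma mem_map (J : CI B) {x : B} (hx : x ∈ P.C) : J.π x ∈ (P.map J).C := ⟨x, hx, rfl⟩

variable [PartialOrder B] [StarOrderedRing B]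

lemma exists_sum {R : Set B} (hR : CRI R) {z₁ z₂ : B} (h₁ : z₁ ∈ R) (h₂ : z₂ ∈ R) (c₁ : z₁ ∈ P.C)
    (c₂ : z₂ ∈ P.C) {ε : ℝ} (hε : 0 < ε) :
    ∃ y ∈ R, y ∈ P.C ∧ star z₁ * z₁ + star z₂ * z₂ ≤ star y * y + ε • (1 : B) := by
  set k := z₁ * star z₁ + z₂ * star z₂ with hk
  have hk0 : 0 ≤ k := add_nonneg (mul_star_self_nonneg _) (mul_star_self_nonneg _)
  have hkR : k ∈ R := hR.add_mem (hR.mul_mem _ h₁) (hR.mul_mem _ h₂)
  have hkC : k ∈ P.C := P.add_mem (P.mul_right _ c₁) (P.mul_right _ c₂)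
  set A := ‖z₁‖ + ‖z₂‖ + 1 with hA
  have hA0 : 0 < A := by positivity
  obtain ⟨d, d0, d1, hd⟩ := exists_au hk0 (η := ε / (4 * A)) (by positivity)
  have nd := norm_le_one_of_mem d0 d1
  have e₁ := hd z₁ (le_add_of_nonneg_right (mul_star_self_nonneg _))
  have e₂ := hd z₂ (le_add_of_nonneg_left (mul_star_self_nonneg _))
  set w₁ := d * z₁ with hw₁
  set w₂ := d * z₂ with hw₂
  set W := ‖w₁‖ + ‖w₂‖ + 1 with hW
  have hW0 : 0 < W := by positivity
  obtain ⟨r, s, p1, p2, p3⟩ := P.pi k hkC (ε / (2 * W ^ 2)) (by positivity)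
  refine ⟨k * r * w₁ + k * s * w₂,
    hR.add_mem (hR.mul_mem _ (hR.mul_mem _ hkR)) (hR.mul_mem _ (hR.mul_mem _ hkR)),
    P.add_mem (P.mul_right _ (P.mul_right _ hkC)) (P.mul_right _ (P.mul_right _ hkC)), ?_⟩
  refine le_add_of_norm_sub ((sa_star_mul _).add (sa_star_mul _)) (sa_star_mul _) ?_
  rw [norm_sub_rev]
  have key : ∀ z : B, ‖z - k * d * z‖ ≤ ε / (4 * A) →
      ‖star (k * d * z) * (k * d * z) - star z * z‖ ≤ ε / (4 * A) * (2 * ‖z‖) := by
    intro z hz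
    refine (norm_star_mul_sub_le _ _).trans ?_
    rw [norm_sub_rev]
    have := nmul_le_r z nd
    exact mul_le_mul hz (by linarith) (by positivity) (by positivity)
  have eq : star (k * r * w₁ + k * s * w₂) * (k * r * w₁ + k * s * w₂)
      - (star z₁ * z₁ + star z₂ * z₂)
      = (star w₁ * (star (k * r) * (k * r) - star k * k) * w₁
        + star w₂ * (star (k * s) * (k * s) - star k * k) * w₂
        + star w₁ * (star (k * r) * (k * s)) * w₂
        + star (star w₁ * (star (k * r) * (k * s)) * w₂))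
        + ((star (k * d * z₁) * (k * d * z₁) - star z₁ * z₁)
          + (star (k * d * z₂) * (k * d * z₂) - star z₂ * z₂)) := by
    simp only [hw₁, hw₂, star_add, star_mul, star_star]; noncomm_ring
  rw [eq]
  set η := ε / (2 * W ^ 2) with hη
  have hη0 : 0 ≤ η := by positivity
  have n1 := (norm_conj_le w₁ _ w₁).trans
    (mul_le_mul_of_nonneg_right (mul_le_mul_of_nonneg_left p1 (norm_nonneg w₁)) (norm_nonneg w₁))
  have n2 := (norm_conj_le w₂ _ w₂).trans
    (mul_le_mul_of_nonneg_right (mul_le_mul_of_nonneg_left p2 (norm_nonneg w₂)) (norm_nonneg w₂))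
  have n3 := (norm_conj_le w₁ _ w₂).trans
    (mul_le_mul_of_nonneg_right (mul_le_mul_of_nonneg_left p3 (norm_nonneg w₁)) (norm_nonneg w₂))
  have n4 := key z₁ e₁
  have n5 := key z₂ e₂
  have b1 : ‖w₁‖ * η * ‖w₁‖ + ‖w₂‖ * η * ‖w₂‖ + 2 * (‖w₁‖ * η * ‖w₂‖) ≤ ε / 2 := by
    have : η * W ^ 2 = ε / 2 := by rw [hη]; field_simp
    have h' : (‖w₁‖ + ‖w₂‖) ^ 2 ≤ W ^ 2 := by
      rw [hW]; nlinarith [norm_nonneg w₁, norm_nonneg w₂]
    nlinarith [mul_le_mul_of_nonneg_left h' hη0]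
  have b2 : ε / (4 * A) * (2 * ‖z₁‖) + ε / (4 * A) * (2 * ‖z₂‖) ≤ ε / 2 := by
    have : ε / (4 * A) * (2 * A) = ε / 2 := by field_simp; ring
    have h0 : 0 ≤ ε / (4 * A) := by positivity
    nlinarith
  refine (norm_add_le _ _).trans ?_
  have m1 := norm_add_le (star (k * d * z₁) * (k * d * z₁) - star z₁ * z₁)
    (star (k * d * z₂) * (k * d * z₂) - star z₂ * z₂)
  have m2 := norm_add₄_le (a := star w₁ * (star (k * r) * (k * r) - star k * k) * w₁)
    (b := star w₂ * (star (k * s) * (k * s) - star k * k) * w₂)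
    (c := star w₁ * (star (k * r) * (k * s)) * w₂)
    (d := star (star w₁ * (star (k * r) * (k * s)) * w₂))
  rw [norm_star] at m2
  linarith

/-- the closed two-sided ideal generated by `R ∩ C` -/
def Gen (R : Set B) (hR : CRI R) : CI B where
  carrier := {w | ∀ ε : ℝ, 0 < ε → ∃ z ∈ R, z ∈ P.C ∧ star w * w ≤ star z * z + ε • (1 : B)}
  zero_mem' := fun ε hε => ⟨0, hR.zero_mem, P.zero_mem, by
    simpa using smul_nonneg hε.le (zero_le_one (α := B))⟩
  add_mem' := by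
    intro w₁ w₂ h₁ h₂ ε hε
    obtain ⟨z₁, r₁, c₁, k₁⟩ := h₁ (ε / 6) (by positivity)
    obtain ⟨z₂, r₂, c₂, k₂⟩ := h₂ (ε / 6) (by positivity)
    obtain ⟨y, ry, cy, ky⟩ := P.exists_sum hR r₁ r₂ c₁ c₂ (ε := ε / 6) (by positivity)
    refine ⟨√2 • y, hR.smul_mem _ ry, P.smul_mem _ cy, (add_star_mul_le w₁ w₂).trans ?_⟩
    have hs : √2 * √2 = 2 := Real.mul_self_sqrt (by norm_num)
    have e1 : star (√2 • y) * (√2 • y) = (2 : ℝ) • (star y * y) := by simp [smul_smul, hs]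
    rw [e1, ← smul_add]
    have : star w₁ * w₁ + star w₂ * w₂ ≤ star y * y + (ε / 2) • (1 : B) := by
      calc star w₁ * w₁ + star w₂ * w₂
          ≤ (star z₁ * z₁ + (ε / 6) • (1 : B)) + (star z₂ * z₂ + (ε / 6) • (1 : B)) :=
            add_le_add k₁ k₂
        _ = (star z₁ * z₁ + star z₂ * z₂) + (ε / 3) • (1 : B) := by module
        _ ≤ (star y * y + (ε / 6) • (1 : B)) + (ε / 3) • (1 : B) := add_le_add ky le_rfl
        _ = _ := by module
    refine (smul_le_smul_of_nonneg_left this (by norm_num)).trans (le_of_eq ?_)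
    module
  mul_left' := by
    intro b w h ε hε
    obtain ⟨z, r, c, k⟩ := h (ε / (‖b‖ ^ 2 + 1)) (by positivity)
    refine ⟨‖b‖ • z, hR.smul_mem _ r, P.smul_mem _ c, ?_⟩
    have h1 : star b * b ≤ (‖b‖ ^ 2) • (1 : B) := le_of_norm_le (sa_star_mul b) (nsq b).ge
    have h2 := conj_le h1 w
    have e1 : star (‖b‖ • z) * (‖b‖ • z) = (‖b‖ ^ 2) • (star z * z) := by simp [smul_smul, sq]
    have h3 := smul_le_smul_of_nonneg_left k (sq_nonneg ‖b‖)
    have h4 : ‖b‖ ^ 2 * (ε / (‖b‖ ^ 2 + 1)) ≤ ε := by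
      rw [mul_div_assoc', div_le_iff₀ (by positivity)]; nlinarith
    calc star (b * w) * (b * w) = star w * (star b * b) * w := by simp [mul_assoc]
      _ ≤ star w * ((‖b‖ ^ 2) • (1 : B)) * w := h2
      _ = (‖b‖ ^ 2) • (star w * w) := by simp
      _ ≤ _ := h3
      _ = (‖b‖ ^ 2) • (star z * z) + (‖b‖ ^ 2 * (ε / (‖b‖ ^ 2 + 1))) • (1 : B) := by
          rw [smul_add, smul_smul]
      _ ≤ _ := by rw [e1]; exact add_le_add le_rfl (one_smul_mono h4)
  mul_right' := by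
    intro b w h ε hε
    obtain ⟨z, r, c, k⟩ := h (ε / (‖b‖ ^ 2 + 1)) (by positivity)
    refine ⟨z * b, hR.mul_mem _ r, P.mul_right _ c, ?_⟩
    have h1 : star b * b ≤ (‖b‖ ^ 2) • (1 : B) := le_of_norm_le (sa_star_mul b) (nsq b).ge
    have h2 := conj_le k b
    have h3 := smul_le_smul_of_nonneg_left h1 (show 0 ≤ ε / (‖b‖ ^ 2 + 1) by positivity)
    have h4 : (ε / (‖b‖ ^ 2 + 1)) * ‖b‖ ^ 2 ≤ ε := by
      rw [div_mul_eq_mul_div, div_le_iff₀ (by positivity)]; nlinarith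
    calc star (w * b) * (w * b) = star b * (star w * w) * b := by simp [mul_assoc]
      _ ≤ _ := h2
      _ = star (z * b) * (z * b) + (ε / (‖b‖ ^ 2 + 1)) • (star b * b) := by
          simp [mul_add, add_mul, mul_assoc]
      _ ≤ star (z * b) * (z * b) + (ε / (‖b‖ ^ 2 + 1)) • ((‖b‖ ^ 2) • (1 : B)) :=
          add_le_add le_rfl h3
      _ ≤ _ := by rw [smul_smul]; exact add_le_add le_rfl (one_smul_mono h4)
  isClosed' := by
    refine isClosed_of_closure_subset fun w hw ε hε => ?_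
    set η := min 1 (ε / (2 * (2 * ‖w‖ + 1))) with hη
    have hη0 : 0 < η := by positivity
    obtain ⟨w', hw', hd⟩ := Metric.mem_closure_iff.mp hw η hη0
    rw [dist_eq_norm] at hd
    obtain ⟨z, r, c, k⟩ := hw' (ε / 2) (by positivity)
    refine ⟨z, r, c, ?_⟩
    have h1 : ‖w'‖ ≤ ‖w‖ + 1 := by
      have := norm_sub_norm_le w' w
      rw [norm_sub_rev] at this
      have := min_le_left 1 (ε / (2 * (2 * ‖w‖ + 1)))
      linarith
    have h2 : ‖star w * w - star w' * w'‖ ≤ ε / 2 := by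
      refine (norm_star_mul_sub_le _ _).trans ?_
      have h3 : ‖w - w'‖ ≤ ε / (2 * (2 * ‖w‖ + 1)) := hd.le.trans (min_le_right _ _)
      calc ‖w - w'‖ * (‖w‖ + ‖w'‖) ≤ ε / (2 * (2 * ‖w‖ + 1)) * (2 * ‖w‖ + 1) :=
            mul_le_mul h3 (by linarith) (by positivity) (by positivity)
        _ = ε / 2 := by field_simp
    calc star w * w ≤ star w' * w' + (ε / 2) • (1 : B) :=
          le_add_of_norm_sub (sa_star_mul _) (sa_star_mul _) h2
      _ ≤ (star z * z + (ε / 2) • (1 : B)) + (ε / 2) • (1 : B) := add_le_add k le_rfl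
      _ = _ := by module

lemma mem_Gen_iff {R : Set B} {hR : CRI R} {w : B} : w ∈ P.Gen R hR ↔
    ∀ ε : ℝ, 0 < ε → ∃ z ∈ R, z ∈ P.C ∧ star w * w ≤ star z * z + ε • (1 : B) := Iff.rfl

lemma mem_Gen {R : Set B} (hR : CRI R) {z : B} (hz : z ∈ R) (hC : z ∈ P.C) : z ∈ P.Gen R hR :=
  fun ε hε => ⟨z, hz, hC, le_add_of_nonneg_right (smul_nonneg hε.le zero_le_one)⟩

lemma Gen_le {R : Set B} {hR : CRI R} (L : CI B) (h : ∀ z ∈ R, z ∈ P.C → z ∈ L) {w : B}
    (hw : w ∈ P.Gen R hR) : w ∈ L := by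
  rw [← L.π_eq_zero, ← norm_le_zero_iff]
  refine le_of_forall_pos_le_add fun ε hε => le_of_sq_le (by positivity) ?_
  obtain ⟨z, r, c, k⟩ := hw (ε ^ 2) (by positivity)
  have := L.π_le k
  rw [map_add, L.π_smul, map_mul, map_mul, map_star, map_star, L.π_eq_zero.mpr (h z r c),
    map_one] at this
  rw [nsq, zero_add]
  exact norm_le_of_le (star_mul_self_nonneg _) (sq_nonneg _) (by simpa using this)

lemma π_Gen (J : CI B) {R : Set B} {hR : CRI R} {R' : Set J.Q} (hR' : CRI R')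
    (h : ∀ z ∈ R, J.π z ∈ R') {w : B} (hw : w ∈ P.Gen R hR) : J.π w ∈ (P.map J).Gen R' hR' := by
  intro ε hε
  obtain ⟨z, r, c, k⟩ := hw ε hε
  refine ⟨J.π z, h z r, P.mem_map J c, ?_⟩
  have := J.π_le k
  rwa [map_add, J.π_smul, map_mul, map_mul, map_star, map_star, map_one] at this

omit P in
lemma emb_aux {R : Set B} (hR : CRI R) {u n z : B} (hn : IsSelfAdjoint n) (hn1 : ‖n‖ ≤ 1)
    (hu : u * n = n) (hz : z ∈ R) (k : star u * u ≤ star z * z + (1 / 2 : ℝ) • (1 : B)) :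
    ∃ y ∈ R, star y * y = n * n ∧ y * star y ≤ (2 : ℝ) • (z * star z) := by
  have h1 := conj_le k n
  have e1 : star n * (star u * u) * n = n * n := by
    calc star n * (star u * u) * n = star (u * n) * (u * n) := by simp [mul_assoc]
      _ = n * n := by rw [hu, hn.star_eq]
  have e2 : star n * (star z * z + (1 / 2 : ℝ) • (1 : B)) * n
      = star (z * n) * (z * n) + (1 / 2 : ℝ) • (n * n) := by
    simp [mul_add, add_mul, mul_assoc, hn.star_eq]
  rw [e1, e2] at h1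
  have h2 : n * n ≤ (2 : ℝ) • (star (z * n) * (z * n)) := by
    have := smul_le_smul_of_nonneg_left h1 (show (0 : ℝ) ≤ 2 by norm_num)
    rw [← sub_nonneg] at this ⊢
    convert this using 1
    module
  obtain ⟨y, hy, k1, k2⟩ := douglas_smul hR (hR.mul_mem n hz) hn (by norm_num) h2
  refine ⟨y, hy, k1, k2.trans (smul_le_smul_of_nonneg_left ?_ (by norm_num))⟩
  have := conj_le' (mul_star_le_one hn1) z
  simpa [mul_assoc] using this

/-- embedding of a plateau into the right ideal -/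
lemma emb {R : Set B} {hR : CRI R} {u n : B} (hu : u ∈ P.Gen R hR) (hn : IsSelfAdjoint n)
    (hn1 : ‖n‖ ≤ 1) (hun : u * n = n) : ∃ y ∈ R, star y * y = n * n := by
  obtain ⟨z, r, -, k⟩ := hu (1 / 2) (by norm_num)
  obtain ⟨y, hy, k1, -⟩ := emb_aux hR hn hn1 hun r k
  exact ⟨y, hy, k1⟩

/-- two almost orthogonal embeddings -/
lemma two {R : Set B} {hR : CRI R} {u n : B} (hu : u ∈ P.Gen R hR) (hn : IsSelfAdjoint n)
    (hn1 : ‖n‖ ≤ 1) (hun : u * n = n) {ε : ℝ} (hε : 0 < ε) :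
    ∃ y₁ ∈ R, ∃ y₂ ∈ R, star y₁ * y₁ = n * n ∧ star y₂ * y₂ = n * n ∧ ‖star y₁ * y₂‖ ≤ ε := by
  obtain ⟨z, hz, c, k⟩ := hu (1 / 4) (by norm_num)
  obtain ⟨r, s, p1, p2, p3⟩ := P.pi z c (min (1 / 4) (ε / 2)) (by positivity)
  have key : ∀ t : B, ‖star (z * t) * (z * t) - star z * z‖ ≤ min (1 / 4) (ε / 2) →
      star u * u ≤ star (z * t) * (z * t) + (1 / 2 : ℝ) • (1 : B) := by
    intro t ht
    rw [norm_sub_rev] at ht
    have := le_add_of_norm_sub (sa_star_mul _) (sa_star_mul _) (ht.trans (min_le_left _ _))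
    refine k.trans ((add_le_add this le_rfl).trans (le_of_eq ?_))
    module
  obtain ⟨y₁, h₁, k₁, l₁⟩ := emb_aux hR hn hn1 hun (hR.mul_mem r hz) (key r p1)
  obtain ⟨y₂, h₂, k₂, l₂⟩ := emb_aux hR hn hn1 hun (hR.mul_mem s hz) (key s p2)
  refine ⟨y₁, h₁, y₂, h₂, k₁, k₂, le_of_sq_le hε.le ?_⟩
  have a1 := nsq_star_mul_le_smul (by norm_num) l₁ y₂
  have a2 := nsq_star_mul_le_smul (by norm_num) l₂ (z * r)
  have a3 : ‖star (z * r) * y₂‖ = ‖star y₂ * (z * r)‖ := by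
    rw [← norm_star, star_mul, star_star]
  have a4 : ‖star (z * s) * (z * r)‖ ≤ ε / 2 := by
    rw [← norm_star, star_mul, star_star]; exact p3.trans (min_le_right _ _)
  rw [a3] at a1
  have a5 : ‖star (z * s) * (z * r)‖ ^ 2 ≤ (ε / 2) ^ 2 := by gcongr
  nlinarith

/-- ideal generated by the spectral region of `K` below `τ` -/
def Low (K : B) (τ : ℝ) : CI B := P.Gen (Sp K (Iic τ)) (cri_Sp K _)

lemma le_π_Low {K : B} (hK : IsSelfAdjoint K) {τ N : ℝ} (hτ : τ < N) (hC : N • (1 : B) - K ∈ P.C) :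
    τ • (1 : (P.Low K τ).Q) ≤ (P.Low K τ).π K := by
  have hc : Continuous fun t : ℝ => max (τ - t) 0 := by fun_prop
  have h1 : cfc (fun t : ℝ => max (τ - t) 0) K ∈ Sp K (Iic τ) :=
    cfc_mem_Sp K hc fun t ht => max_eq_right (by have : τ < t := by simpa using ht
                                                 linarith)
  have h2 : cfc (fun t : ℝ => max (τ - t) 0) K ∈ P.Low K τ := by
    refine P.mem_Gen _ h1 ?_
    obtain ⟨y, hy⟩ := Sp_Iic_eq_mul hK hτ h1
    rw [hy]; exact P.mul_right _ hC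
  have h3 : τ • (1 : B) - K ≤ cfc (fun t : ℝ => max (τ - t) 0) K := by
    have := cfc_sub_eq K (continuous_const (y := τ)) continuous_id (k := fun t => τ - t)
      (fun _ => rfl)
    rw [cfc_id ℝ K, cfc_const' hK] at this
    rw [this]
    exact cfc_le' hK (by fun_prop) hc fun t => le_max_left _ _
  have := (P.Low K τ).π_le h3
  rwa [(P.Low K τ).π_eq_zero.mpr h2, map_sub, CI.π_smul, map_one, sub_nonpos] at this

lemma Low_le {K : B} (hK : IsSelfAdjoint K) {τ τ' : ℝ} (hτ : τ < τ') (L : CI B)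
    (h : τ' • (1 : L.Q) ≤ L.π K) {w : B} (hw : w ∈ P.Low K τ) : w ∈ L := by
  refine P.Gen_le L (fun z hz _ => ?_) hw
  have h1 := hz (rampf τ τ') (continuous_rampf _ _) fun t ht => rampf_eq_zero hτ ht
  have h2 := congrArg L.π h1
  rw [map_mul, L.π_cfc hK (continuous_rampf _ _),
    cfc_eq_one_of_le (L.π_sa hK) h (fun x hx => rampf_eq_one hτ hx), one_mul, map_zero] at h2
  exact L.π_eq_zero.mp h2

/-- gluing along a chain of ideals -/
lemma glue {K K' : B} (hK : IsSelfAdjoint K) (hK' : IsSelfAdjoint K') (hle : K' ≤ K) {δ τ N : ℝ}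
    (hδ : δ < τ) (hτ0 : 0 < τ) (hτ : τ < N) (hC : N • (1 : B) - K' ∈ P.C) (w : (P.Low K δ).Q)
    (hw : ‖star w * (P.Low K δ).π K' * w‖ < τ) {m : B}
    (hm : star w * w * (P.Low K δ).π m = (P.Low K δ).π m) : m ∈ P.Low K' τ := by
  obtain ⟨w, rfl⟩ := (P.Low K δ).π_surj w
  set J := P.Low K δ with hJ
  set L := P.Low K' τ with hL
  have h1 : τ • (1 : L.Q) ≤ L.π K' := P.le_π_Low hK' hτ hC
  have h2 : ∀ x ∈ J, x ∈ L := fun x hx => P.Low_le hK hδ L (h1.trans (L.π_le hle)) hx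
  have h3 := mul_nsq_le hτ0.le h1 (L.π w)
  have h4 := J.norm_π_le_of_le h2 (star w * K' * w)
  simp only [map_mul, map_star] at h4
  have h5 : ‖star (L.π w) * L.π w‖ < 1 := by
    rw [← nsq]
    by_contra hc
    push Not at hc
    nlinarith
  have h6 : star (L.π w) * L.π w * L.π m = L.π m := by
    have : star w * w * m - m ∈ J := by
      rw [← J.π_eq]; simpa [map_star] using hm
    have := L.π_eq.mpr (h2 _ this)
    simpa [map_star] using this
  exact L.π_eq_zero.mp (eq_zero_of_fix h6 h5)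

end Ctx

end Crest.Agent.R110
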