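import Crest.Agent.R110.PB

/-!
# Row 110: the full case (the ramp of `a` lies in the ideal generated by the top of `b`)
-/

set_option autoImplicit false

open Set Filter Topology

namespace Crest.Agent.R110

variable {B : Type*} [CStarAlgebra B] [PartialOrder B] [StarOrderedRing B]

namespace Ctx

variable (P : Ctx B)

lemma lemA_aux {a b c : B} (ha : IsSelfAdjoint a) (haC : a ∈ P.C) (hb : IsSelfAdjoint b)
    (hbC : b ∈ P.C) (hc : ‖c‖ ≤ 1) {α α' β β' γ₀ γ₁ γ₂ γ₃ : ℝ} (a0 : 0 < α) (a1 : α < α')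
    (b0 : 0 < β) (b1 : β < β') (g : 0 < γ₁) (g0 : γ₀ < γ₁) (g1 : γ₁ < γ₂) (g2 : γ₂ < γ₃)
    (h : rp b γ₀ γ₁ ∈ P.Gen (Sp b (Ici γ₂)) (cri_Sp _ _)) {ε : ℝ} (hε : 0 < ε) :
    ∃ x y w, V a α α' x ∧ V b β β' y ∧ w ∈ Sp b (Ici γ₁) ∧
      star w * w = rp b γ₂ γ₃ * rp b γ₂ γ₃ ∧ ‖star x * (c * w)‖ ≤ ε ∧ ‖star y * w‖ ≤ ε := by
  obtain ⟨q, yq, qsa, qq, qm, qy, yy⟩ := P.cp hb g0 g1 g2 le_rfl h
  have qC : q ∈ P.C := P.mem_of_Sp hb hbC g qm
  obtain ⟨ρ, x, qρ, ρρ, hx, hρx⟩ := P.pb (c := star c) qsa qq qC ha haC (by simpa using hc) a0 a1 hε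
  have ρq : ρ * q = ρ := by
    rw [← sub_eq_zero, ← CStarRing.star_mul_self_eq_zero_iff, star_sub, star_mul, qsa.star_eq]
    calc (q * star ρ - star ρ) * (ρ * q - ρ)
        = q * (star ρ * ρ) * q - q * (star ρ * ρ) - (star ρ * ρ) * q + star ρ * ρ := by noncomm_ring
      _ = 0 := by rw [ρρ, qq, qq]; abel
  have pp : ρ * star ρ * (ρ * star ρ) = ρ * star ρ := by
    calc ρ * star ρ * (ρ * star ρ) = ρ * (star ρ * ρ) * star ρ := by noncomm_ring
      _ = _ := by rw [ρρ, ρq]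
  have pC : ρ * star ρ ∈ P.C := by
    rw [← qρ]; exact P.mul_right _ (P.mul_right _ qC)
  obtain ⟨σ, y, pσ, σσ, hy, hσy⟩ := P.pb (c := 1) (sa_mul_star ρ) pp pC hb hbC
    (norm_le_one_of_mem zero_le_one le_rfl) b0 b1 hε
  have nq := norm_proj_le qsa qq
  have nρ : ‖ρ‖ ≤ 1 := norm_le_of_sq_eq qsa nq (by rw [ρρ, qq])
  have nσ : ‖σ‖ ≤ 1 :=
    norm_le_of_sq_eq (sa_mul_star ρ) (norm_proj_le (sa_mul_star ρ) pp) (by rw [σσ, pp])
  have ny : ‖yq‖ ≤ 1 := norm_le_of_sq_eq (rp_sa _ _ _) (norm_rp_le _ _ _) yy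
  have nρy : ‖ρ * yq‖ ≤ 1 := (nmul_le_r _ nρ).trans ny
  refine ⟨x, y, σ * (ρ * yq), hx, hy, ?_, ?_, ?_, ?_⟩
  · rw [← pσ, ← qρ]
    simp only [mul_assoc]
    exact (cri_Sp _ _).mul_mem _ qm
  · calc star (σ * (ρ * yq)) * (σ * (ρ * yq))
        = star yq * star ρ * (star σ * σ) * ρ * yq := by simp only [star_mul]; noncomm_ring
      _ = star yq * ((star ρ * ρ) * ((star ρ * ρ) * yq)) := by rw [σσ]; noncomm_ring
      _ = _ := by rw [ρρ, qy, qy, yy]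
  · have : star x * (c * (σ * (ρ * yq))) = star (star ρ * star c * x) * (star ρ * (σ * (ρ * yq))) := by
      conv_lhs => rw [← pσ]
      simp only [star_mul, star_star]; noncomm_ring
    rw [this]
    refine (nmul_le_l _ ?_).trans (by rwa [norm_star])
    exact (nmul_le_r _ (by simpa using nρ)).trans ((nmul_le_r _ nσ).trans nρy)
  · have : star y * (σ * (ρ * yq)) = star (star σ * 1 * y) * (ρ * yq) := by
      simp only [star_mul, star_star, star_one, one_mul, mul_one, mul_assoc]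
    rw [this]
    exact (nmul_le_l _ nρy).trans (by rwa [norm_star])

lemma lemA {a b c : B} (ha : IsSelfAdjoint a) (haC : a ∈ P.C) (hb : IsSelfAdjoint b)
    (hbC : b ∈ P.C) (hc : ‖c‖ ≤ 1) {α₁ α₂ α₃ β₀ β₂ β₃ β₄ : ℝ} (a0 : 0 < α₁) (a1 : α₁ < α₂)
    (a2 : α₂ < α₃) (b0 : 0 < β₀) (b1 : β₀ < β₂) (b2 : β₂ < β₃) (b3 : β₃ < β₄)
    (h : rp a α₁ α₂ ∈ P.Gen (Sp b (Ici β₂)) (cri_Sp _ _)) {ε : ℝ} (hε : 0 < ε) :
    ∃ x w y, V a α₂ α₃ x ∧ V b β₀ β₄ w ∧ V b β₃ β₄ y ∧ ‖star x * (c * w)‖ ≤ ε ∧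
      ‖star y * w‖ ≤ ε := by
  obtain ⟨γ₀, g0, g'⟩ := exists_between b1
  obtain ⟨γ₁, g1, g2⟩ := exists_between g'
  obtain ⟨α, a3, a'⟩ := exists_between a2
  obtain ⟨α', a4, a5⟩ := exists_between a'
  obtain ⟨β, b4, b'⟩ := exists_between b3
  obtain ⟨β', b5, b6⟩ := exists_between b'
  set τ := min 1 (ε ^ 2 / 2) with hτ
  have τ0 : 0 < τ := by positivity
  have τ1 : τ ≤ 1 := min_le_left _ _
  have τ2 : τ ≤ ε ^ 2 / 2 := min_le_right _ _
  set u := rp a α₁ α₂ with hu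
  set v := rp b β₂ β₃ with hv
  have usa : IsSelfAdjoint u := rp_sa _ _ _
  have vsa : IsSelfAdjoint v := rp_sa _ _ _
  have uC : u ∈ P.C := P.rp_mem_C ha haC a0 a1
  have vC : v ∈ P.C := P.rp_mem_C hb hbC (by linarith) b2
  set H := star c * (u * u) * c + v * v with hH
  have uu : IsSelfAdjoint (u * u) := by simpa [usa.star_eq] using sa_star_mul u
  have vv : IsSelfAdjoint (v * v) := by simpa [vsa.star_eq] using sa_star_mul v
  have Hsa : IsSelfAdjoint H := (uu.conjugate' c).add vv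
  have HC : H ∈ P.C := P.add_mem (P.mul_right _ (P.mul_left _ (P.mul_left _ uC))) (P.mul_left _ vC)
  have hJ := P.nsq_π_LowK hb hbC (τ := τ / 2) b0 g0 Hsa HC (by linarith)
  set K := KK b β₀ γ₀ H with hK
  set J := P.Low K (τ / 2) with hJdef
  -- collapse
  have hG : ∀ z ∈ Sp b (Ici β₂), J.π z ∈ Sp (J.π b) (Ici β₂) := fun z hz => J.π_Sp hb hz
  have hcol : rp (J.π b) γ₀ γ₁ ∈ (P.map J).Gen (Sp (J.π b) (Ici β₂)) (cri_Sp _ _) := by
    set G := (P.map J).Gen (Sp (J.π b) (Ici β₂)) (cri_Sp _ _) with hGdef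
    have h1 : J.π u ∈ G := P.π_Gen J _ hG h
    have h2 : J.π v ∈ G := (P.map J).mem_Gen _ (hG _ (rp_mem b b2)) (P.mem_map J vC)
    have h3 : J.π H ∈ G := by
      rw [hH, map_add, map_mul, map_mul, map_mul, map_mul]
      exact G.add_mem (G.mul_right _ (G.mul_left _ (G.mul_left _ h1))) (G.mul_left _ h2)
    rw [← J.π_rp hb]
    set E := rp b γ₀ γ₁ with hE
    have h4 := conj_le hJ (J.π E)
    have h5 : star (J.π E) * J.π K * J.π E = star (J.π E) * J.π H * J.π E := by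
      rw [← map_star, ← map_mul, ← map_mul, conj_KK hb g0 _ (rp_mem b g1), map_mul, map_mul]
    rw [h5] at h4
    refine G.mem_of_le (G.smul_mem (τ / 2)⁻¹ (G.mul_right (J.π E) (G.mul_left (star (J.π E)) h3))) ?_
    have h6 := smul_le_smul_of_nonneg_left h4 (show 0 ≤ (τ / 2)⁻¹ by positivity)
    rwa [mul_smul_comm, smul_mul_assoc, smul_smul, inv_mul_cancel₀ (by positivity), one_smul,
      mul_one] at h6
  obtain ⟨x₀, y₀, w₀, hx₀, hy₀, mw₀, ww₀, n1, n2⟩ := (P.map J).lemA_aux (J.π_sa ha)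
    (P.mem_map J haC) (J.π_sa hb) (P.mem_map J hbC) ((J.norm_π_le c).trans hc) (α := α) (α' := α')
    (β := β) (β' := β') (by linarith) a4 (by linarith) b5 (by linarith) g1 g2 b2 hcol
    (ε := τ / 4) (by positivity)
  obtain ⟨x, hx, hx'⟩ := P.lift J ha haC (by linarith) a3 a4.le a5 hx₀
  obtain ⟨y, hy, hy'⟩ := P.lift J hb hbC (by linarith) b4 b5.le b6 hy₀
  set g := star c * x with hg
  have ng : ‖g‖ ≤ 1 := (nmul_le_r _ (by simpa using hc)).trans hx.norm_le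
  set H' := g * star g + y * star y with hH'
  have H'0 : 0 ≤ H' := add_nonneg (mul_star_self_nonneg _) (mul_star_self_nonneg _)
  have H'sa : IsSelfAdjoint H' := IsSelfAdjoint.of_nonneg H'0
  have H'le : H' ≤ H := by
    refine add_le_add ?_ (mul_star_le_of_fix vsa hy.norm_le (rp_fix hb b2 hy.mem))
    have := conj_le (mul_star_le_of_fix usa hx.norm_le (rp_fix ha a1 hx.mem)) c
    simpa [hg, mul_assoc] using this
  have H'C : H' ∈ P.C :=
    P.add_mem (P.mul_right _ (P.mul_left _ (P.mem_of_Sp ha haC (by linarith) hx.mem)))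
      (P.mul_right _ (P.mem_of_Sp hb hbC (by linarith) hy.mem))
  obtain ⟨w, hw, hw'⟩ := P.succ hb g0 b3 H'0 τ0.le τ1 (by
    intro m hm
    refine P.glue (KK_sa b β₀ γ₀ Hsa) (KK_sa b β₀ γ₀ H'sa) (KK_mono b β₀ γ₀ H'le)
      (δ := τ / 2) (N := 100) (by linarith) τ0 (by linarith) (P.KK_mem hb hbC b0 g0 H'C)
      w₀ ?_ (sq_rp_fix (J.π_sa hb) b2 ww₀ (J.π_Sp hb hm))
    show ‖star w₀ * J.π (KK b β₀ γ₀ H') * w₀‖ < τ
    rw [J.π_KK hb, conj_KK (J.π_sa hb) g0 _ (Sp_Ici_mono _ g1.le mw₀)]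
    have e : star w₀ * J.π H' * w₀
        = star (star (J.π x) * (J.π c * w₀)) * (star (J.π x) * (J.π c * w₀))
          + star (star (J.π y) * w₀) * (star (J.π y) * w₀) := by
      rw [hH', hg]; simp [map_star, mul_assoc, mul_add, add_mul]
    rw [e]
    refine lt_of_le_of_lt (norm_add_le _ _) ?_
    rw [← nsq, ← nsq]
    have k1 := nsq_star_mul_le_smul (by norm_num) hx' (J.π c * w₀)
    have k2 := nsq_star_mul_le_smul (by norm_num) hy' w₀
    have k3 : ‖star x₀ * (J.π c * w₀)‖ ^ 2 ≤ (τ / 4) ^ 2 := by gcongr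
    have k4 : ‖star y₀ * w₀‖ ^ 2 ≤ (τ / 4) ^ 2 := by gcongr
    nlinarith)
  refine ⟨x, w, y, hx, hw, hy, le_of_sq_le hε.le ?_, le_of_sq_le hε.le ?_⟩
  · have := hw' g ng (le_add_of_nonneg_right (mul_star_self_nonneg _))
    rw [hg, star_mul, star_star, mul_assoc] at this
    nlinarith
  · have := hw' y hy.norm_le (le_add_of_nonneg_left (mul_star_self_nonneg _))
    nlinarith

end Ctx

end Crest.Agent.R110
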