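import Crest.Agent.R110.Step

/-!
# Row 110: iteration and the main theorem in a context
-/

set_option autoImplicit false

open Set Filter Topology

namespace Crest.Agent.R110

variable {B : Type*} [CStarAlgebra B]

lemma V.comp {a x x' : B} {s t σ σ' : ℝ} (hx : V a s t x) (hx' : V (x * star x) σ σ' x')
    (h0 : 0 < σ) (h1 : σ' < 1) : V a s t (x' * x) := by
  refine ⟨(nmul_le_r _ hx'.norm_le).trans hx.norm_le, ?_, fun ξ hξ => ?_⟩
  · obtain ⟨y, hy⟩ := Sp_Ici_eq_mul (sa_mul_star x) h0 hx'.mem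
    rw [hy, mul_assoc, mul_assoc]
    exact (cri_Sp _ _).mul_mem _ hx.mem
  · have k1 := hx.fix ξ hξ
    have k2 : x * star x * (x * ξ) = x * ξ := by
      calc x * star x * (x * ξ) = x * (star x * x * ξ) := by noncomm_ring
        _ = _ := by rw [k1]
    have k3 := hx'.fix _ (mem_Sp_of_fix (sa_mul_star x) k2 h1)
    calc star (x' * x) * (x' * x) * ξ = star x * (star x' * x' * (x * ξ)) := by
          rw [star_mul]; noncomm_ring
      _ = ξ := by rw [k3, ← mul_assoc, k1]

variable [PartialOrder B] [StarOrderedRing B]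

lemma exists_u (x : B) : ∃ u : B, ‖u‖ ^ 2 ≤ 16 / 15 ∧
    ∀ ξ ∈ Sp (x * star x) (Ici (15 / 16)), x * star u * ξ = ξ := by
  have hpos : ∀ t : ℝ, 0 < max t (15 / 16) := fun t => lt_max_of_lt_right (by norm_num)
  have hc : Continuous fun t : ℝ => 1 / max t (15 / 16) :=
    continuous_const.div (by fun_prop) fun t => (hpos t).ne'
  have hsa := sa_mul_star x
  refine ⟨cfc (fun t : ℝ => 1 / max t (15 / 16)) (x * star x) * x, ?_, fun ξ hξ => ?_⟩
  · rw [nsq', star_mul, (cfc_sa _ _).star_eq, ← mul_assoc, mul_assoc _ x, cfc_conj_eq hsa hc]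
    refine norm_cfc_le_pos (mul_star_self_nonneg x) (by norm_num) fun t ht => ?_
    have h1 := hpos t
    have h2 : t ≤ max t (15 / 16) := le_max_left _ _
    have h3 : 15 / 16 ≤ max t (15 / 16) := le_max_right _ _
    rw [abs_of_nonneg (by positivity)]
    have : 1 / max t (15 / 16) * t * (1 / max t (15 / 16)) = t / (max t (15 / 16)) ^ 2 := by
      field_simp
    rw [this, div_le_iff₀ (by positivity)]
    nlinarith
  · rw [star_mul, (cfc_sa _ _).star_eq, ← mul_assoc, mul_cfc_eq hsa hc (fun _ => rfl)]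
    refine Sp_fix hsa hξ (by fun_prop) fun t ht => ?_
    have ht' : (15 / 16 : ℝ) ≤ t := ht
    rw [max_eq_left ht']
    field_simp [show t ≠ 0 by linarith]

lemma final_aux {a : B} (ha : 0 ≤ a) {s t : ℝ} (hs : 0 < s) (ht : 0 < t) :
    ∃ G m : B, IsSelfAdjoint G ∧ m ∈ Sp a (Ici t) ∧ ∀ x, V a s t x →
      ‖star (G * x * m) * a * (G * x * m) - a‖ ≤ t := by
  have hsa := IsSelfAdjoint.of_nonneg ha
  have hpos : ∀ r : ℝ, 0 < max r s := fun r => lt_max_of_lt_right hs
  have hc : Continuous fun r : ℝ => 1 / √(max r s) :=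
    continuous_const.div (by fun_prop) fun r => (Real.sqrt_pos.mpr (hpos r)).ne'
  have hc2 : Continuous fun r : ℝ => √(max (r - t) 0) := by fun_prop
  have hm : cfc (fun r : ℝ => √(max (r - t) 0)) a ∈ Sp a (Ici t) :=
    cfc_mem_Sp a hc2 fun r hr => by
      have : r < t := by simpa using hr
      rw [max_eq_right (by linarith), Real.sqrt_zero]
  refine ⟨cfc (fun r : ℝ => 1 / √(max r s)) a, cfc (fun r : ℝ => √(max (r - t) 0)) a, cfc_sa _ _,
    hm, fun x hx => ?_⟩
  set G := cfc (fun r : ℝ => 1 / √(max r s)) a with hG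
  set m := cfc (fun r : ℝ => √(max (r - t) 0)) a with hm'
  have k1 : G * a * G * x = x := by
    rw [hG, cfc_conj_eq hsa hc]
    refine Sp_fix hsa hx.mem (by fun_prop) fun r hr => ?_
    have hr' : s ≤ r := hr
    rw [max_eq_left hr']
    have h1 : √r * √r = r := Real.mul_self_sqrt (by linarith)
    have h2 : 0 < √r := Real.sqrt_pos.mpr (by linarith)
    field_simp
    nlinarith
  have k2 : star (G * x * m) * a * (G * x * m) = m * m := by
    calc star (G * x * m) * a * (G * x * m) = m * (star x * (G * a * G * x) * m) := by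
          rw [star_mul, star_mul, (cfc_sa _ _).star_eq, (cfc_sa _ _).star_eq]; noncomm_ring
      _ = m * m := by rw [k1, hx.fix m hm]
  have k3 : m * m - a = cfc (fun r : ℝ => max (r - t) 0 - r) a := by
    rw [hm', cfc_mul_eq a hc2 hc2 (k := fun r => max (r - t) 0)
      (fun r => Real.mul_self_sqrt (le_max_right _ _))]
    have := cfc_sub_eq a (f := fun r : ℝ => max (r - t) 0) (by fun_prop) continuous_id
      (k := fun r : ℝ => max (r - t) 0 - r) (fun _ => rfl)
    rwa [cfc_id ℝ a] at this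
  rw [k2, k3]
  refine norm_cfc_le_pos ha ht.le fun r hr => ?_
  rw [abs_le]
  constructor
  · linarith [le_max_left (r - t) 0]
  · have : max (r - t) 0 ≤ r := max_le (by linarith) hr
    linarith

namespace Ctx

variable (P : Ctx B)

lemma iter {a b c : B} (ha : IsSelfAdjoint a) (haC : a ∈ P.C) (hb : IsSelfAdjoint b)
    (hbC : b ∈ P.C) (hc : ‖c‖ ≤ 1) {s t : ℝ} (hs : 0 < s) (ht : s < t) (n : ℕ) :
    ∃ x w, V a s t x ∧ V b s t w ∧ ‖star x * (c * w)‖ ≤ (14 / 15) ^ n := by
  induction n with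
  | zero =>
    obtain ⟨x, w, hx, hw, h⟩ := P.stepB ha haC hb hbC hc hs ht hs ht
    exact ⟨x, w, hx, hw, h.trans (by norm_num)⟩
  | succ n ih =>
    obtain ⟨x, w, hx, hw, h⟩ := ih
    set θ : ℝ := (14 / 15) ^ n with hθ
    have θ0 : 0 < θ := by positivity
    obtain ⟨u, nu, hu⟩ := exists_u x
    obtain ⟨u', nu', hu'⟩ := exists_u w
    have nc : ‖(15 / (16 * θ)) • (u * (star x * (c * w)) * star u')‖ ≤ 1 := by
      rw [norm_smul, Real.norm_of_nonneg (by positivity)]
      have k1 := nmul_le (nmul_le (le_refl ‖u‖) h) (le_refl ‖star u'‖)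
      rw [norm_star] at k1
      have k2 : ‖u‖ * ‖u'‖ ≤ 16 / 15 := by nlinarith [sq_nonneg (‖u‖ - ‖u'‖)]
      have k3 : ‖u‖ * θ * ‖u'‖ ≤ 16 / 15 * θ := by nlinarith
      calc 15 / (16 * θ) * ‖u * (star x * (c * w)) * star u'‖ ≤ 15 / (16 * θ) * (16 / 15 * θ) :=
            mul_le_mul_of_nonneg_left (k1.trans k3) (by positivity)
        _ = 1 := by field_simp
    obtain ⟨x', w', hx', hw', h'⟩ := P.stepB (sa_mul_star x)
      (P.mul_right _ (P.mem_of_Sp ha haC hs hx.mem)) (sa_mul_star w)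
      (P.mul_right _ (P.mem_of_Sp hb hbC hs hw.mem)) nc (α₀ := 15 / 16) (α' := 31 / 32)
      (β₀ := 15 / 16) (β' := 31 / 32) (by norm_num) (by norm_num) (by norm_num) (by norm_num)
    refine ⟨x' * x, w' * w, hx.comp hx' (by norm_num) (by norm_num),
      hw.comp hw' (by norm_num) (by norm_num), ?_⟩
    have e1 : star x' * (c * w') = star x' * (u * (star x * (c * w)) * star u' * w') := by
      conv_lhs => rw [← hu x' hx'.mem, ← hu' w' hw'.mem]
      simp only [star_mul, star_star, mul_assoc]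
    rw [smul_mul_assoc, mul_smul_comm, ← e1, norm_smul, Real.norm_of_nonneg (by positivity),
      div_mul_eq_mul_div, div_le_iff₀ (by positivity)] at h'
    have e2 : star (x' * x) * (c * (w' * w)) = star x * (star x' * (c * w')) * w := by
      simp only [star_mul, mul_assoc]
    rw [e2, pow_succ]
    refine (nmul_le_l _ hw.norm_le).trans ((nmul_le_r _ (by simpa using hx.norm_le)).trans ?_)
    linarith

theorem main {a b : B} (ha : 0 ≤ a) (haC : a ∈ P.C) (hb : 0 ≤ b) (hbC : b ∈ P.C) (c : B) {ε : ℝ}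
    (hε : 0 < ε) : ∃ s ∈ P.C, ∃ t ∈ P.C, ‖star s * a * s - a‖ < ε ∧ ‖star t * b * t - b‖ < ε ∧
      ‖star s * c * t‖ < ε := by
  have hsa := IsSelfAdjoint.of_nonneg ha
  have hsb := IsSelfAdjoint.of_nonneg hb
  obtain ⟨G, m, Gsa, hm, hG⟩ := final_aux ha (s := ε / 4) (t := ε / 2) (by positivity) (by positivity)
  obtain ⟨G', m', Gsa', hm', hG'⟩ :=
    final_aux hb (s := ε / 4) (t := ε / 2) (by positivity) (by positivity)
  set M := ‖G * c * G'‖ + 1 with hM
  have M0 : 0 < M := by positivity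
  have nc : ‖M⁻¹ • (G * c * G')‖ ≤ 1 := by
    rw [norm_smul, Real.norm_of_nonneg (by positivity), inv_mul_le_iff₀ M0]
    linarith
  set A := M * (‖m‖ * ‖m'‖ + 1) with hA
  have A0 : 0 < A := by positivity
  obtain ⟨n, hn⟩ := exists_pow_lt_of_lt_one (x := ε / A) (y := (14 / 15 : ℝ)) (by positivity)
    (by norm_num)
  obtain ⟨x, w, hx, hw, h⟩ := P.iter hsa haC hsb hbC nc (s := ε / 4) (t := ε / 2) (by positivity)
    (by linarith) n
  refine ⟨G * x * m, P.mul_left _ (P.mem_of_Sp hsa haC (by positivity) hm), G' * w * m',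
    P.mul_left _ (P.mem_of_Sp hsb hbC (by positivity) hm'),
    (hG x hx).trans_lt (by linarith), (hG' w hw).trans_lt (by linarith), ?_⟩
  rw [smul_mul_assoc, mul_smul_comm, norm_smul, Real.norm_of_nonneg (by positivity),
    inv_mul_le_iff₀ M0] at h
  have e : star (G * x * m) * c * (G' * w * m') = star m * (star x * (G * c * G' * w)) * m' := by
    simp only [star_mul, Gsa.star_eq, mul_assoc]
  rw [e]
  refine (norm_conj_le _ _ _).trans_lt ?_
  rw [lt_div_iff₀ A0] at hn
  have h0 : (0 : ℝ) < (14 / 15) ^ n := by positivity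
  have h1 : ‖m‖ * ‖star x * (G * c * G' * w)‖ * ‖m'‖ ≤ ‖m‖ * (M * (14 / 15) ^ n) * ‖m'‖ := by
    gcongr
  have h2 : 0 < M * (14 / 15) ^ n := by positivity
  nlinarith

end Ctx

end Crest.Agent.R110
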