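import Crest.Agent.R110.Succ

/-!
# Row 110: moving a projection away from an element; collapse produces a projection
-/

set_option autoImplicit false

open Set Filter Topology

namespace Crest.Agent.R110

variable {B : Type*} [CStarAlgebra B] [PartialOrder B] [StarOrderedRing B]

lemma exists_inv {K : B} (hK : IsSelfAdjoint K) {δ : ℝ} (hδ : 0 < δ) (h : δ • (1 : B) ≤ K) :
    ∃ K', K * K' = 1 := by
  have hpos : ∀ t : ℝ, 0 < max t δ := fun t => lt_max_of_lt_right hδ
  have hc : Continuous fun t : ℝ => 1 / max t δ :=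
    continuous_const.div (by fun_prop) fun t => (hpos t).ne'
  refine ⟨cfc (fun t : ℝ => 1 / max t δ) K, ?_⟩
  rw [mul_cfc_eq hK hc (fun _ => rfl)]
  refine cfc_eq_one_of_le hK h fun t ht => ?_
  rw [max_eq_left ht]
  field_simp [show t ≠ 0 by linarith]

omit [PartialOrder B] [StarOrderedRing B] in
lemma norm_proj_le {p : B} (hp : IsSelfAdjoint p) (hpp : p * p = p) : ‖p‖ ≤ 1 := by
  have h := nsq p
  rw [hp.star_eq, hpp] at h
  nlinarith [norm_nonneg p]

omit [PartialOrder B] [StarOrderedRing B] in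
lemma star_mem_Sp {b s E : B} {S : Set ℝ} (hE : E ∈ Sp b S) (h : star s * s = E * E) :
    star s ∈ Sp b S := by
  intro f hf hS
  rw [← CStarRing.mul_star_self_eq_zero_iff, star_mul, star_star]
  calc cfc f b * star s * (s * star (cfc f b)) = cfc f b * (star s * s) * star (cfc f b) := by
        noncomm_ring
    _ = (cfc f b * E) * (E * star (cfc f b)) := by rw [h]; noncomm_ring
    _ = 0 := by rw [hE f hf hS, zero_mul]

namespace Ctx

variable (P : Ctx B)

lemma pb_aux {p c w₀ w₂ x : B} (hp : IsSelfAdjoint p) (hpp : p * p = p) (hpC : p ∈ P.C)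
    (hc : ‖c‖ ≤ 1) (hw₀ : ‖w₀‖ ≤ 1) (hw₂ : w₂ ∈ P.C) (hww : star w₂ * w₂ = star w₀ * w₀) {d : ℝ}
    (hd : 0 < d) (hd1 : d < 1) (horth : ‖star w₂ * w₀‖ ≤ d ^ 2) (hx : p * x = x)
    (h₀ : star w₀ * star c * x = star w₀ * w₀) (h₂ : star w₂ * star c * x = star w₂ * w₀) :
    ∃ y, V p (1 / 4) (1 / 2) y ∧ ‖star (c * w₂) * y‖ ^ 2 ≤ 5 / 4 * d := by
  set z := c * w₂ with hz
  have zC : z * star z ∈ P.C := P.mul_right _ (P.mul_left _ hw₂)
  have hw₂' : ‖w₂‖ ≤ 1 := by
    refine le_of_sq_le zero_le_one ?_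
    rw [nsq, hww, ← nsq]; gcongr
  have nz : ‖z‖ ≤ 1 := (nmul_le_r _ hc).trans hw₂'
  have hL := P.nsq_π_LowK hp hpC (β := 1 / 4) (γ := 1 / 3) (τ := d) (by norm_num) (by norm_num)
    (sa_mul_star z) zC (by linarith)
  set L := P.Low (KK p (1 / 4) (1 / 3) (z * star z)) d with hLdef
  have key : ∀ ξ : B, p * ξ = ξ → d * ‖L.π ξ‖ ^ 2 ≤ ‖L.π (star z * ξ)‖ ^ 2 := by
    intro ξ hξ
    refine (mul_nsq_le hd.le hL _).trans (le_of_eq ?_)
    rw [← map_star, ← map_mul, ← map_mul, conj_KK hp (by norm_num) _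
      (mem_Sp_of_fix hp hξ (by norm_num)), nsq, ← map_star, ← map_mul]
    congr 2
    simp [mul_assoc]
  have k1 : d * ‖L.π x‖ ^ 2 ≤ (d ^ 2) ^ 2 := by
    refine (key x hx).trans ?_
    have : star z * x = star w₂ * w₀ := by rw [hz, star_mul, h₂]
    rw [this]
    have := (L.norm_π_le _).trans horth
    gcongr
  have k2 : ‖L.π w₂‖ ^ 2 ≤ ‖L.π x‖ := by
    rw [nsq, ← map_star, ← map_mul, hww, ← h₀, map_mul]
    refine nmul_le_r _ ((L.norm_π_le _).trans ?_)
    exact (nmul_le_r _ (by simpa using hw₀)).trans (by simpa using hc)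
  have k3 : d * ‖L.π p‖ ^ 2 ≤ ‖L.π w₂‖ ^ 2 := by
    refine (key p hpp).trans ?_
    have : ‖L.π (star z * p)‖ ≤ ‖L.π w₂‖ := by
      rw [hz, star_mul, mul_assoc, map_mul, map_star]
      refine (nmul_le_l _ ((L.norm_π_le _).trans ?_)).trans (by simp)
      exact (nmul_le_r _ (by simpa using hc)).trans (norm_proj_le hp hpp)
    gcongr
  have k4 : ‖L.π p‖ < 1 := by
    by_contra hcon
    push Not at hcon
    have a0 : 1 ≤ ‖L.π p‖ ^ 2 := by nlinarith
    have a1 : d ≤ ‖L.π x‖ := by nlinarith [mul_le_mul_of_nonneg_left a0 hd.le]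
    have a2 : d * d ^ 2 ≤ d * ‖L.π x‖ ^ 2 := by gcongr
    have a3 : d ^ 3 * 1 ≤ d ^ 3 * d := by nlinarith
    have := le_of_mul_le_mul_left a3 (by positivity)
    linarith
  have pL : p ∈ L := L.π_eq_zero.mp (eq_zero_of_fix (by rw [← map_mul, hpp]) k4)
  obtain ⟨y, hy, hy'⟩ := P.succ hp (β := 1 / 4) (γ := 1 / 3) (γ' := 1 / 3) (β' := 1 / 2)
    (by norm_num) (by norm_num) (mul_star_self_nonneg z) hd.le hd1.le (by
      intro m hm
      obtain ⟨y, rfl⟩ := Sp_Ici_eq_mul hp (by norm_num) hm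
      exact L.mul_right _ pL)
  exact ⟨y, hy, hy' z nz le_rfl⟩

/-- a projection can be moved inside itself so as to be almost orthogonal to `c w` -/
lemma pb {p b c : B} (hp : IsSelfAdjoint p) (hpp : p * p = p) (hpC : p ∈ P.C)
    (hb : IsSelfAdjoint b) (hbC : b ∈ P.C) (hc : ‖c‖ ≤ 1) {β β' : ℝ} (h0 : 0 < β) (hβ : β < β')
    {ε : ℝ} (hε : 0 < ε) :
    ∃ ρ w, p * ρ = ρ ∧ star ρ * ρ = p ∧ V b β β' w ∧ ‖star ρ * c * w‖ ≤ ε := by
  obtain ⟨γ, g0, g'⟩ := exists_between hβ
  obtain ⟨γ₁, g1, g''⟩ := exists_between g'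
  obtain ⟨γ₂, g2, g3⟩ := exists_between g''
  set τ := min 1 (ε ^ 2 / 2) with hτ
  have τ0 : 0 < τ := by positivity
  have τ1 : τ ≤ 1 := min_le_left _ _
  have τ2 : τ ≤ ε ^ 2 / 2 := min_le_right _ _
  have hsa : IsSelfAdjoint (star c * p * c) := hp.conjugate' c
  have hC : star c * p * c ∈ P.C := P.mul_right _ (P.mul_left _ hpC)
  have hJ := P.nsq_π_LowK hb hbC (τ := τ / 2) h0 g0 hsa hC (by linarith)
  obtain ⟨w₀, m₀, w₂, m₂, s₀, s₂, orth⟩ := P.two
    (P.mem_Gen (cri_Sp b (Ici γ)) (rp_mem b g1) (P.rp_mem_C hb hbC (by linarith) g1))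
    (rp_sa b γ₁ γ₂) (norm_rp_le _ _ _) (rp_mul_rp hb g1 le_rfl g2) (ε := (τ / 4) ^ 2)
    (by positivity)
  set K := KK b β γ (star c * p * c) with hK
  set J := P.Low K (τ / 2) with hJdef
  obtain ⟨K', hK'⟩ := exists_inv (J.π_sa (KK_sa b β γ hsa)) (by positivity) hJ
  have key : ∀ w ∈ Sp b (Ici γ),
      star (J.π w) * star (J.π c) * (J.π p * J.π c * K' * J.π w₀) = star (J.π w) * J.π w₀ := by
    intro w hw
    have h1 := congrArg J.π (star_mul_KK hb g0 hsa hw)
    simp only [map_mul, map_star] at h1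
    calc star (J.π w) * star (J.π c) * (J.π p * J.π c * K' * J.π w₀)
        = (star (J.π w) * (star (J.π c) * J.π p * J.π c)) * K' * J.π w₀ := by noncomm_ring
      _ = star (J.π w) * (J.π K * K') * J.π w₀ := by
          rw [← h1, hK]; simp only [mul_assoc]
      _ = _ := by rw [hK', mul_one]
  have ppp : J.π p * J.π p = J.π p := by rw [← map_mul, hpp]
  obtain ⟨x₀, hx₀, hx₀'⟩ := (P.map J).pb_aux (J.π_sa hp) ppp (P.mem_map J hpC)
    ((J.norm_π_le c).trans hc)
    ((J.norm_π_le w₀).trans (norm_le_of_sq_eq (rp_sa _ _ _) (norm_rp_le _ _ _) s₀))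
    (P.mem_map J (P.mem_of_Sp hb hbC (by linarith) m₂))
    (by rw [← map_star, ← map_star, ← map_mul, ← map_mul, s₀, s₂]) (d := τ / 4) (by positivity)
    (by linarith) (by
      rw [← map_star, ← map_mul]
      refine (J.norm_π_le _).trans ?_
      rwa [← norm_star, star_mul, star_star])
    (x := J.π p * J.π c * K' * J.π w₀)
    (by rw [← mul_assoc, ← mul_assoc, ← mul_assoc, ppp]) (key w₀ m₀) (key w₂ m₂)
  obtain ⟨x, hx, hx'⟩ := P.lift J hp hpC (β' := 1 / 8) (t' := 3 / 4) (by norm_num) (by norm_num)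
    (by norm_num) (by norm_num) hx₀
  have px : p * x = x := by
    obtain ⟨y, hy⟩ := Sp_Ici_eq_mul hp (by norm_num) hx.mem
    rw [hy, ← mul_assoc, hpp]
  have xp : star x * x * p = p := hx.fix p (mem_Sp_of_fix hp hpp (by norm_num))
  have np := norm_proj_le hp hpp
  have nρ : ‖x * p‖ ≤ 1 := (nmul_le_l _ np).trans hx.norm_le
  have pρ : p * (x * p) = x * p := by rw [← mul_assoc, px]
  set g := star c * (x * p) with hg
  have ng : ‖g‖ ≤ 1 := (nmul_le_r _ (by simpa using hc)).trans nρ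
  have gle : g * star g ≤ star c * p * c := by
    have := conj_le (mul_star_le_of_fix hp nρ pρ) c
    rw [hpp] at this
    simpa [hg, mul_assoc] using this
  have gC : g * star g ∈ P.C := P.mul_right _ (P.mul_left _ (P.mul_left _ hpC))
  obtain ⟨w, hw, hw'⟩ := P.succ hb g0 g3 (mul_star_self_nonneg g) τ0.le τ1 (by
    intro m hm
    refine P.glue (KK_sa b β γ hsa) (KK_sa b β γ (sa_mul_star g)) (KK_mono b β γ gle)
      (δ := τ / 2) (N := 100) (by linarith) τ0 (by linarith) (P.KK_mem hb hbC h0 g0 gC)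
      (J.π w₂) ?_ ?_
    · rw [← map_star, ← map_mul, ← map_mul, conj_KK hb g0 _ m₂]
      have e : star w₂ * (g * star g) * w₂ = star (star g * w₂) * (star g * w₂) := by
        simp [mul_assoc]
      rw [e, map_mul, map_star, ← nsq]
      have e2 : J.π (star g * w₂) = J.π p * (star (J.π x) * (J.π c * J.π w₂)) := by
        rw [hg]; simp [map_star, mul_assoc, hp.star_eq]
      have a1 : ‖J.π (star g * w₂)‖ ≤ ‖star (J.π x) * (J.π c * J.π w₂)‖ := by
        rw [e2]; exact nmul_le_r _ ((J.norm_π_le _).trans np)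
      have a2 := nsq_star_mul_le_smul (by norm_num) hx' (J.π c * J.π w₂)
      have a3 : ‖star x₀ * (J.π c * J.π w₂)‖ = ‖star (J.π c * J.π w₂) * x₀‖ := by
        rw [← norm_star, star_mul, star_star]
      rw [a3] at a2
      have a4 : ‖J.π (star g * w₂)‖ ^ 2 ≤ ‖star (J.π x) * (J.π c * J.π w₂)‖ ^ 2 := by gcongr
      linarith
    · rw [← map_star, ← map_mul, ← map_mul, sq_rp_fix hb g2 s₂ hm])
  refine ⟨x * p, w, pρ, ?_, hw, le_of_sq_le hε.le ?_⟩
  · rw [star_mul, hp.star_eq]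
    calc p * star x * (x * p) = p * (star x * x * p) := by noncomm_ring
      _ = p := by rw [xp, hpp]
  · have := hw' g ng le_rfl
    rw [hg, star_mul, star_star] at this
    nlinarith

/-- collapse produces a projection -/
lemma cp {b : B} (hb : IsSelfAdjoint b) {γ₀ γ₁ γ₂ γ₃ β₂ : ℝ} (g0 : γ₀ < γ₁) (g1 : γ₁ < γ₂)
    (g2 : γ₂ < γ₃) (g3 : γ₂ ≤ β₂) (h : rp b γ₀ γ₁ ∈ P.Gen (Sp b (Ici β₂)) (cri_Sp _ _)) :
    ∃ q y : B, IsSelfAdjoint q ∧ q * q = q ∧ q ∈ Sp b (Ici γ₁) ∧ q * y = y ∧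
      star y * y = rp b γ₂ γ₃ * rp b γ₂ γ₃ := by
  obtain ⟨s, ms, s', ms', e, e', orth⟩ := P.two h (rp_sa b γ₁ γ₂) (norm_rp_le _ _ _)
    (rp_mul_rp hb g0 le_rfl g1) (ε := 1 / 2) (by norm_num)
  set E := rp b γ₁ γ₂ with hE
  have hc : Continuous fun t : ℝ => √(1 - rampf γ₁ γ₂ t * rampf γ₁ γ₂ t) := by fun_prop
  set D := cfc (fun t : ℝ => √(1 - rampf γ₁ γ₂ t * rampf γ₁ γ₂ t)) b with hD
  have Dsa : star D = D := (cfc_sa _ _).star_eq
  have DD : D * D = 1 - E * E := by
    rw [hE, rp, cfc_mul_eq b (continuous_rampf _ _) (continuous_rampf _ _) (fun _ => rfl),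
      one_sub_cfc hb (by fun_prop) (fun _ => rfl)]
    refine cfc_mul_eq b hc hc fun t => Real.mul_self_sqrt ?_
    nlinarith [rampf_nonneg γ₁ γ₂ t, rampf_le_one γ₁ γ₂ t]
  have D0 : ∀ x ∈ Sp b (Ici β₂), D * x = 0 := fun x hx =>
    hx _ hc fun t ht => by rw [rampf_eq_one g1 (g3.trans ht)]; simp
  have Ds := D0 s ms
  have Ds' := D0 s' ms'
  have sD : star s * D = 0 := by simpa [Dsa] using congrArg star Ds
  set W := s + D with hW
  have WW : star W * W = 1 := by
    rw [hW, star_add, Dsa]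
    calc (star s + D) * (s + D) = star s * s + star s * D + D * s + D * D := by noncomm_ring
      _ = 1 := by rw [e, sD, Ds, DD]; noncomm_ring
  set q := 1 - W * star W with hq
  have qsa : IsSelfAdjoint q := (IsSelfAdjoint.one B).sub (sa_mul_star W)
  have qq : q * q = q := by
    calc q * q = 1 - W * star W - W * star W + W * (star W * W) * star W := by
          rw [hq]; noncomm_ring
      _ = q := by rw [WW, hq]; noncomm_ring
  have mE : E ∈ Sp b (Ici γ₁) := rp_mem b g1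
  have qm : q ∈ Sp b (Ici γ₁) := by
    have : q = E * E - s * (star s + D) - D * star s := by
      rw [hq, hW, star_add, Dsa]
      calc 1 - (s + D) * (star s + D) = 1 - D * D - s * (star s + D) - D * star s := by noncomm_ring
        _ = _ := by rw [DD]; noncomm_ring
    rw [this]
    have hR := cri_Sp b (Ici γ₁)
    exact hR.sub_mem (hR.sub_mem (hR.mul_mem _ mE) (hR.mul_mem _ (Sp_Ici_mono b (by linarith) ms)))
      (cfc_mul_mem_Sp (star_mem_Sp mE e) hc)
  set n := rp b γ₂ γ₃ with hn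
  have nsa : star n = n := star_rp _ _ _
  have En : E * n = n := rp_mul_rp hb g1 le_rfl g2
  have Ws' : star W * s' = star s * s' := by rw [hW, star_add, Dsa, add_mul, Ds', add_zero]
  have k1 : star (q * s' * n) * (q * s' * n)
      = n * n - star n * (star (star s * s') * (star s * s')) * n := by
    rw [← Ws']
    calc star (q * s' * n) * (q * s' * n) = n * star s' * (q * q) * s' * n := by
          rw [star_mul, star_mul, qsa.star_eq, nsa]; noncomm_ring
      _ = n * (star s' * s') * n - star n * (star (star W * s') * (star W * s')) * n := by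
          rw [qq, hq, star_mul, star_star, nsa]; noncomm_ring
      _ = _ := by
          have nE : n * E = n := by simpa [nsa, hE] using congrArg star En
          rw [e', ← mul_assoc, nE, mul_assoc, En]
  have k2 : star n * (star (star s * s') * (star s * s')) * n ≤ (1 / 4 : ℝ) • (n * n) := by
    have h1 : star (star s * s') * (star s * s') ≤ (1 / 4 : ℝ) • (1 : B) :=
      le_of_norm_le (sa_star_mul _) (by rw [← nsq]; nlinarith [norm_nonneg (star s * s')])
    have := conj_le h1 n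
    simpa [nsa] using this
  have k3 : n * n ≤ (4 / 3 : ℝ) • (star (q * s' * n) * (q * s' * n)) := by
    rw [k1, ← sub_nonneg]
    have := smul_nonneg (show (0 : ℝ) ≤ 4 / 3 by norm_num) (sub_nonneg.mpr k2)
    convert this using 1
    module
  obtain ⟨y, hy, y1, -⟩ := douglas_smul (cri_fix q) (x := q * s' * n)
    (by show q * (q * s' * n) = q * s' * n
        rw [← mul_assoc, ← mul_assoc, qq]) (rp_sa b γ₂ γ₃) (by norm_num) k3
  exact ⟨q, y, qsa, qq, qm, hy, y1⟩

end Ctx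

end Crest.Agent.R110
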