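import Crest.Agent.R110.LemA
import Crest.Agent.R110.QC

/-!
# Row 110: one contraction step
-/

set_option autoImplicit false

open Set Filter Topology

namespace Crest.Agent.R110

variable {B : Type*} [CStarAlgebra B] [PartialOrder B] [StarOrderedRing B]

lemma CI.mem_of_smul_le (G : CI B) {K E : B} {δ : ℝ} (hδ : 0 < δ) (hK : δ • (1 : B) ≤ K)
    (h : star E * K * E ∈ G) : E ∈ G := by
  refine G.mem_of_le (G.smul_mem δ⁻¹ h) ?_
  have h6 := smul_le_smul_of_nonneg_left (conj_le hK E) (show 0 ≤ δ⁻¹ by positivity)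
  rwa [mul_smul_comm, smul_mul_assoc, smul_smul, inv_mul_cancel₀ hδ.ne', one_smul, mul_one] at h6

lemma conj_le_of_sa {n E : B} (hn : IsSelfAdjoint n) (h : IsSelfAdjoint (n * E * n)) {r : ℝ}
    (hE : ‖E‖ ≤ r) : n * E * n ≤ r • (n * n) := by
  have h1 : IsSelfAdjoint ((1 / 2 : ℝ) • (E + star E)) :=
    sa_smul _ (IsSelfAdjoint.add_star_self E)
  have h2 : ‖(1 / 2 : ℝ) • (E + star E)‖ ≤ r := by
    rw [norm_smul, Real.norm_of_nonneg (by norm_num)]
    have := norm_add_le E (star E)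
    rw [norm_star] at this
    linarith
  have h3 := conj_le (le_of_norm_le h1 h2) n
  have h4 : n * star E * n = n * E * n := by
    have := h.star_eq
    rwa [star_mul, star_mul, hn.star_eq, ← mul_assoc] at this
  rw [hn.star_eq, mul_smul_comm, smul_mul_assoc, mul_add, add_mul, h4, ← two_smul ℝ, smul_smul]
    at h3
  simpa using h3

lemma patch_lower {w y i n : B} (hn : IsSelfAdjoint n) (hw : star w * w * n = n)
    (hy : star y * y * n = n) (i0 : 0 ≤ i) (i1 : i ≤ 1)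
    (cw : ‖i * (star w * w) - star w * w * i‖ ≤ 1 / 1000)
    (cy : ‖i * (star y * y) - star y * y * i‖ ≤ 1 / 1000)
    (hX : ‖(1 - i) * (star w * y)‖ ≤ 2 / 1000) :
    n * n ≤ (203 / 100 : ℝ) • (star ((w * (1 - i) + y * i) * n) * ((w * (1 - i) + y * i) * n)) := by
  have isa : star i = i := (IsSelfAdjoint.of_nonneg i0).star_eq
  have ni := norm_le_one_of_mem i0 i1
  have ni' := norm_one_sub_le i0 i1
  set E := (1 - i) * (i * (star w * w) - star w * w * i) - i * (i * (star y * y) - star y * y * i)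
    + (1 - i) * (star w * y) * i + star ((1 - i) * (star w * y) * i) with hE
  have nE : ‖-E‖ ≤ 6 / 1000 := by
    rw [norm_neg, hE]
    have a1 := (nmul_le_r _ ni').trans cw
    have a2 := (nmul_le_r _ ni).trans cy
    have a3 := (nmul_le_l _ ni).trans hX
    have a4 := norm_add₃_le (a := (1 - i) * (i * (star w * w) - star w * w * i)
      - i * (i * (star y * y) - star y * y * i)) (b := (1 - i) * (star w * y) * i)
      (c := star ((1 - i) * (star w * y) * i))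
    have a5 := norm_sub_le ((1 - i) * (i * (star w * w) - star w * w * i))
      (i * (i * (star y * y) - star y * y * i))
    rw [norm_star] at a4
    linarith
  set T := star ((w * (1 - i) + y * i) * n) * ((w * (1 - i) + y * i) * n) with hT
  set S := star ((1 - i - i) * n) * ((1 - i - i) * n) with hS
  have key : n * (-E) * n = (1 / 2 : ℝ) • (n * n) + (1 / 2 : ℝ) • S - T := by
    have e1 : T = n * ((1 - i) * (1 - i)) * (star w * w * n) + n * (i * i) * (star y * y * n)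
        + n * E * n := by
      rw [hT, hE]
      simp only [star_mul, star_add, star_sub, star_one, star_star, isa, hn.star_eq]
      noncomm_ring
    have e2 : n * n + S = (2 : ℝ) • (n * ((1 - i) * (1 - i)) * n + n * (i * i) * n) := by
      rw [hS, two_smul]
      simp only [star_mul, star_sub, star_one, isa, hn.star_eq]
      noncomm_ring
    rw [hw, hy] at e1
    rw [← smul_add, e2, e1, smul_smul, mul_neg, neg_mul]
    norm_num
  have nn : IsSelfAdjoint (n * n) := by simpa [hn.star_eq] using sa_star_mul n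
  have h1 := conj_le_of_sa hn (E := -E) (by
    rw [key]
    exact ((sa_smul _ nn).add (sa_smul _ (sa_star_mul _))).sub (sa_star_mul _)) nE
  rw [key] at h1
  have S0 : 0 ≤ S := star_mul_self_nonneg _
  have nn0 : 0 ≤ n * n := by simpa [hn.star_eq] using star_mul_self_nonneg n
  have h2 := add_nonneg (smul_nonneg (show (0 : ℝ) ≤ 203 / 100 by norm_num)
    (add_nonneg (sub_nonneg.mpr h1) (smul_nonneg (show (0 : ℝ) ≤ 1 / 2 by norm_num) S0)))
    (smul_nonneg (show (0 : ℝ) ≤ 282 / 100000 by norm_num) nn0)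
  rw [← sub_nonneg]
  convert h2 using 1
  module

omit [PartialOrder B] [StarOrderedRing B] in
lemma avg_comm {i₁ i₂ f : B} {r : ℝ} (h₁ : ‖i₁ * f - f * i₁‖ ≤ r) (h₂ : ‖i₂ * f - f * i₂‖ ≤ r) :
    ‖(1 / 2 : ℝ) • (i₁ + i₂) * f - f * (1 / 2 : ℝ) • (i₁ + i₂)‖ ≤ r := by
  have : (1 / 2 : ℝ) • (i₁ + i₂) * f - f * (1 / 2 : ℝ) • (i₁ + i₂)
      = (1 / 2 : ℝ) • ((i₁ * f - f * i₁) + (i₂ * f - f * i₂)) := by
    rw [smul_mul_assoc, mul_smul_comm, ← smul_sub]; congr 1; noncomm_ring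
  rw [this, norm_smul, Real.norm_of_nonneg (by norm_num)]
  linarith [norm_add_le (i₁ * f - f * i₁) (i₂ * f - f * i₂)]

omit [PartialOrder B] [StarOrderedRing B] in
lemma avg_unit (i₁ i₂ g : B) :
    (1 - (1 / 2 : ℝ) • (i₁ + i₂)) * g = (1 / 2 : ℝ) • ((g - i₁ * g) + (g - i₂ * g)) := by
  rw [sub_mul, one_mul, smul_mul_assoc, add_mul]; module

omit [PartialOrder B] [StarOrderedRing B] in
lemma avg_unit_le {i₁ i₂ g j : B} {r : ℝ} (hi : ‖1 - (1 / 2 : ℝ) • (i₁ + i₂)‖ ≤ 1)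
    (h : ‖g - j‖ ≤ r) (h₁ : ‖j - i₁ * j‖ ≤ r) (h₂ : ‖j - i₂ * j‖ ≤ r) :
    ‖(1 - (1 / 2 : ℝ) • (i₁ + i₂)) * g‖ ≤ 2 * r := by
  have : (1 - (1 / 2 : ℝ) • (i₁ + i₂)) * g
      = (1 - (1 / 2 : ℝ) • (i₁ + i₂)) * (g - j) + (1 - (1 / 2 : ℝ) • (i₁ + i₂)) * j := by
    noncomm_ring
  rw [this, avg_unit i₁ i₂ j]
  refine (norm_add_le _ _).trans ?_
  rw [norm_smul, Real.norm_of_nonneg (by norm_num)]
  linarith [norm_add_le (j - i₁ * j) (j - i₂ * j), nmul_le_r (g - j) hi]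

namespace Ctx

variable (P : Ctx B)

lemma stepB {a b c : B} (ha : IsSelfAdjoint a) (haC : a ∈ P.C) (hb : IsSelfAdjoint b)
    (hbC : b ∈ P.C) (hc : ‖c‖ ≤ 1) {α₀ α' β₀ β' : ℝ} (a0 : 0 < α₀) (ha' : α₀ < α') (b0 : 0 < β₀)
    (hb' : β₀ < β') : ∃ x w, V a α₀ α' x ∧ V b β₀ β' w ∧ ‖star x * (c * w)‖ ≤ 7 / 8 := by
  obtain ⟨α₁, a1, ha'⟩ := exists_between ha'
  obtain ⟨α₂, a2, ha'⟩ := exists_between ha'
  obtain ⟨α₃, a3, ha'⟩ := exists_between ha'
  obtain ⟨α₄, a4, a5⟩ := exists_between ha'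
  obtain ⟨β₁, b1, hb'⟩ := exists_between hb'
  obtain ⟨β₂, b2, hb'⟩ := exists_between hb'
  obtain ⟨β₃, b3, hb'⟩ := exists_between hb'
  obtain ⟨β₄, b4, hb'⟩ := exists_between hb'
  obtain ⟨β₅, b5, hb'⟩ := exists_between hb'
  obtain ⟨β₆, b6, b7⟩ := exists_between hb'
  have hc' : ‖star c‖ ≤ 1 := by simpa using hc
  set v := rp b β₂ β₃ with hv
  have vsa : IsSelfAdjoint v := rp_sa _ _ _
  have vC : v ∈ P.C := P.rp_mem_C hb hbC (by linarith) b3
  set H := (c * v) * star (c * v) with hH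
  have H0 : 0 ≤ H := mul_star_self_nonneg _
  have Hsa : IsSelfAdjoint H := sa_mul_star _
  have HC : H ∈ P.C := P.mul_right _ (P.mul_left _ vC)
  have hJ := P.nsq_π_LowK ha haC (τ := (1 / 1000) ^ 2) a0 a1 Hsa HC (by norm_num)
  set K := KK a α₀ α₁ H with hK
  have Ksa : IsSelfAdjoint K := KK_sa _ _ _ Hsa
  set J := P.Low K ((1 / 1000) ^ 2) with hJdef
  have hfull : rp (J.π a) α₁ α₂ ∈ (P.map J).Gen (Sp (J.π b) (Ici β₂)) (cri_Sp _ _) := by
    set G := (P.map J).Gen (Sp (J.π b) (Ici β₂)) (cri_Sp _ _) with hGdef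
    have h2 : J.π v ∈ G := (P.map J).mem_Gen _ (J.π_Sp hb (rp_mem b b3)) (P.mem_map J vC)
    refine G.mem_of_smul_le (by norm_num) hJ ?_
    rw [← J.π_rp ha, ← map_star, ← map_mul, ← map_mul, conj_KK ha a1 _ (rp_mem a a2), hH,
      map_mul, map_mul, map_mul, map_mul]
    exact G.mul_right _ (G.mul_left _ (G.mul_right _ (G.mul_left _ h2)))
  obtain ⟨x₀, w₀, y₀, hx₀, hw₀, hy₀, n1, n2⟩ := (P.map J).lemA (J.π_sa ha) (P.mem_map J haC)
    (J.π_sa hb) (P.mem_map J hbC) ((J.norm_π_le c).trans hc) (α₃ := α₃) (β₀ := β₁) (β₃ := β₄)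
    (β₄ := β₅) (by linarith) a2 a3 (by linarith) b2 (by linarith) b5 hfull (ε := 1 / 4000)
    (by norm_num)
  obtain ⟨x, hx, hx'⟩ := P.lift J ha haC (by linarith) a2 a3.le a4 hx₀
  obtain ⟨w, hw, hw'⟩ := P.lift J hb hbC b0 b1 (by linarith) b6 hw₀
  obtain ⟨y, hy, hy'⟩ := P.lift J hb hbC (by linarith) b4 b5.le b6 hy₀
  have two : ∀ {p q p₀ q₀ d : J.Q}, p * star p ≤ (2 : ℝ) • (p₀ * star p₀) →
      q * star q ≤ (2 : ℝ) • (q₀ * star q₀) → ‖star q₀ * (d * p₀)‖ ≤ 1 / 4000 →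
      ‖star p * (star d * q)‖ < 1 / 1000 := by
    intro p q p₀ q₀ d hp hq h
    have k1 := nsq_star_mul_le_smul (by norm_num) hp (star d * q)
    have k2 := nsq_star_mul_le_smul (by norm_num) hq (d * p₀)
    have k3 : ‖star p₀ * (star d * q)‖ = ‖star q * (d * p₀)‖ := by
      rw [← norm_star]; simp [mul_assoc]
    have k4 : ‖star q₀ * (d * p₀)‖ ^ 2 ≤ (1 / 4000) ^ 2 := by gcongr
    rw [k3] at k1
    have : ‖star p * (star d * q)‖ ≤ 1 / 2000 := le_of_sq_le (by norm_num) (by linarith)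
    linarith
  set f := star (c * w) with hf
  have nf : ‖f‖ ≤ 1 := by rw [hf, norm_star]; exact (nmul_le_r _ hc).trans hw.norm_le
  obtain ⟨j₁, j₁J, hj₁⟩ := J.exists_near (x := f * x) (r := 1 / 1000) (by
    have := two hw' hx' n1
    simpa [hf, map_star, mul_assoc] using this)
  obtain ⟨j₀, j₀J, hj₀⟩ := J.exists_near (x := star w * y) (r := 1 / 1000) (by
    have := two (d := 1) hw' hy' (by simpa using n2)
    simpa [map_star] using this)
  have nF : ∀ g ∈ [f, star w * w, star y * y], ‖g‖ ≤ 1 := by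
    simp only [List.mem_cons, List.not_mem_nil, or_false, forall_eq_or_imp, forall_eq]
    exact ⟨nf, (nmul_le_l _ hw.norm_le).trans (by simpa using hw.norm_le),
      (nmul_le_l _ hy.norm_le).trans (by simpa using hy.norm_le)⟩
  obtain ⟨i₁, i₁J, i₁0, i₁1, c₁, u₁⟩ := J.exists_qc _ [j₀, j₁] nF (by simp [j₀J, j₁J])
    (ε := 1 / 1000) (by norm_num)
  obtain ⟨z, zR, zC, hz⟩ := i₁J (1 / 1000) (by norm_num)
  have zJ : z ∈ J := P.mem_Gen _ zR zC
  obtain ⟨i₂, i₂J, i₂0, i₂1, c₂, u₂⟩ := J.exists_qc _ [j₀, j₁, z] nF (by simp [j₀J, j₁J, zJ])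
    (ε := 1 / 1000) (by norm_num)
  simp only [List.mem_cons, List.not_mem_nil, or_false, forall_eq_or_imp, forall_eq] at c₁ u₁ c₂ u₂
  have cf := avg_comm c₁.1 c₂.1
  have cw := avg_comm c₁.2.1 c₂.2.1
  have cy := avg_comm c₁.2.2 c₂.2.2
  have uz := avg_unit i₁ i₂ z
  have i0 : 0 ≤ (1 / 2 : ℝ) • (i₁ + i₂) := smul_nonneg (by norm_num) (add_nonneg i₁0 i₂0)
  have i1 : (1 / 2 : ℝ) • (i₁ + i₂) ≤ 1 := by
    refine (smul_le_smul_of_nonneg_left (add_le_add i₁1 i₂1) (by norm_num)).trans (le_of_eq ?_)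
    module
  have ni := norm_le_one_of_mem i0 i1
  have ni' := norm_one_sub_le i0 i1
  have hX₀ := avg_unit_le ni' hj₀.le u₁.1 u₂.1
  have hX₁ := avg_unit_le ni' hj₁.le u₁.2 u₂.2.1
  set i := (1 / 2 : ℝ) • (i₁ + i₂) with hi
  have isa : star i = i := (IsSelfAdjoint.of_nonneg i0).star_eq
  set n := rp b β₆ β' with hn
  have nm : n ∈ Sp b (Ici β₆) := rp_mem b b7
  have low := patch_lower (rp_sa b β₆ β') (hw.fix n nm) (hy.fix n nm) i0 i1 cw cy (by linarith)
  set W := w * (1 - i) + y * i with hW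
  have hR := cri_Sp b (Ici β₀)
  have Wm : W ∈ Sp b (Ici β₀) :=
    hR.add_mem (hR.mul_mem _ hw.mem) (hR.mul_mem _ (Sp_Ici_mono b (by linarith) hy.mem))
  obtain ⟨W', W'm, W'1, W'2⟩ := douglas_smul hR (hR.mul_mem n Wm) (rp_sa b β₆ β') (by norm_num) low
  have hW' : V b β₀ β' W' := V.of_sq hb b7 W'm W'1
  set g := c * W' with hg
  have ng : ‖g‖ ≤ 1 := (nmul_le_r _ hc).trans hW'.norm_le
  have gC : g * star g ∈ P.C := P.mul_right _ (P.mul_left _ (P.mem_of_Sp hb hbC b0 W'm))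
  have gle : g * star g ≤ (203 / 100 : ℝ) • ((c * W) * star (c * W)) := by
    have h1 : W * n * star (W * n) ≤ W * star W := by
      have := conj_le' (mul_star_le_one (norm_rp_le b β₆ β')) W
      simpa [mul_assoc, hn] using this
    have h2 := conj_le' (W'2.trans (smul_le_smul_of_nonneg_left h1 (by norm_num))) c
    simpa [hg, mul_assoc] using h2
  have hL := P.nsq_π_LowK ha haC (τ := 3 / 5) a0 a1 (sa_mul_star g) gC (by norm_num)
  set L := P.Low (KK a α₀ α₁ (g * star g)) (3 / 5) with hLdef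
  have cW : ∀ ξ : B, star (c * W) * ξ = (1 - i) * (f * ξ) + i * (star y * (star c * ξ)) := by
    intro ξ
    rw [hW, hf]
    simp only [star_mul, star_add, star_sub, star_one, isa]
    noncomm_ring
  have gξ : ∀ ξ : B, ‖L.π (star ξ * (g * star g) * ξ)‖
      ≤ 203 / 100 * ‖L.π (star (c * W) * ξ)‖ ^ 2 := by
    intro ξ
    have h1 := L.π_le gle
    rw [L.π_smul, map_mul, map_mul L.π (c * W), map_star, map_star] at h1
    have h2 := nsq_star_mul_le_smul (by norm_num) h1 (L.π ξ)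
    rw [map_mul L.π (star (c * W)), map_star L.π (c * W)]
    refine le_trans (le_of_eq ?_) h2
    rw [nsq]; simp [map_star, mul_assoc]
  -- the element `z` is small modulo `L`
  have zK := Sp_conj_le Ksa zR
  have πzK : ∀ T : B, 0 ≤ T → T ≤ K → ‖L.π (star z * T * z)‖ ≤ (1 / 1000 * ‖L.π z‖) ^ 2 := by
    intro T T0 hT
    have h1 := L.π_le ((conj_le hT z).trans zK)
    have h0 := L.π_le (star_left_conjugate_nonneg T0 z)
    rw [map_zero] at h0
    refine (norm_mono h0 h1).trans (le_of_eq ?_)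
    rw [L.π_smul, norm_smul, Real.norm_of_nonneg (by norm_num), map_mul, map_star, ← nsq, mul_pow]
  have z1 : ‖L.π (star (c * W) * z)‖ ≤ (1 / 2 + 2 / 1000) * ‖L.π z‖ + 1 / 2000 := by
    have e : star (c * W) * z = (1 / 2 : ℝ) • (f * ((1 - i₁) * z)) + (1 / 2 : ℝ) • (f * (z - i₂ * z))
        - (i * f - f * i) * z + i * (star y * (star (c * v) * z)) := by
      have yv : star y * v = star y := by
        simpa [hv] using congrArg star (rp_fix hb b3 hy.mem)
      have e1 : (1 - i) * (f * z) = f * ((1 - i) * z) - (i * f - f * i) * z := by noncomm_ring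
      rw [cW, e1, uz, star_mul c v, vsa.star_eq, mul_assoc v, ← mul_assoc (star y) v, yv,
        mul_smul_comm, mul_add, smul_add, sub_mul 1 i₁, one_mul]
    have t1 : ‖L.π (f * ((1 - i₁) * z))‖ ≤ ‖L.π z‖ := by
      rw [map_mul, map_mul]
      exact (nmul_le_r _ ((L.norm_π_le _).trans nf)).trans
        (nmul_le_r _ ((L.norm_π_le _).trans (norm_one_sub_le i₁0 i₁1)))
    have t2 : ‖L.π (f * (z - i₂ * z))‖ ≤ 1 / 1000 :=
      (L.norm_π_le _).trans ((nmul_le_r _ nf).trans u₂.2.2)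
    have t3 : ‖L.π ((i * f - f * i) * z)‖ ≤ 1 / 1000 * ‖L.π z‖ := by
      rw [map_mul]; exact nmul_le ((L.norm_π_le _).trans cf) le_rfl
    have t4 : ‖L.π (i * (star y * (star (c * v) * z)))‖ ≤ 1 / 1000 * ‖L.π z‖ := by
      rw [map_mul, map_mul]
      refine (nmul_le_r _ ((L.norm_π_le _).trans ni)).trans
        ((nmul_le_r _ ((L.norm_π_le _).trans (by simpa using hy.norm_le))).trans ?_)
      refine le_of_sq_le (by positivity) (le_trans (le_of_eq ?_) (πzK H H0 (KK_ge _ _ _ _)))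
      rw [nsq, ← map_star, ← map_mul, hH]
      congr 2
      simp [mul_assoc]
    rw [e, map_add, map_sub, map_add, L.π_smul, L.π_smul]
    refine (norm_add_le _ _).trans ?_
    have t5 := norm_sub_le ((1 / 2 : ℝ) • L.π (f * ((1 - i₁) * z))
      + (1 / 2 : ℝ) • L.π (f * (z - i₂ * z))) (L.π ((i * f - f * i) * z))
    have t6 := norm_add_le ((1 / 2 : ℝ) • L.π (f * ((1 - i₁) * z)))
      ((1 / 2 : ℝ) • L.π (f * (z - i₂ * z)))
    rw [norm_smul, norm_smul, Real.norm_of_nonneg (by norm_num)] at t6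
    linarith
  have z2 : 3 / 5 * ‖L.π z‖ ^ 2 ≤ (1 / 1000 * ‖L.π z‖) ^ 2
      + 203 / 100 * ‖L.π (star (c * W) * z)‖ ^ 2 := by
    refine (mul_nsq_le (by norm_num) hL _).trans ?_
    rw [← map_star, ← map_mul, ← map_mul, KK, mul_add, add_mul, map_add]
    refine (norm_add_le _ _).trans (add_le_add (πzK _ ?_ (KK_ge_pen _ _ _ H0)) (gξ z))
    exact smul_nonneg (by norm_num) (sub_nonneg.mpr (rp_le_one _ _ _))
  have z3 : ‖L.π z‖ ≤ 1 / 50 := by
    have h1 : ‖L.π (star (c * W) * z)‖ ^ 2 ≤ ((1 / 2 + 2 / 1000) * ‖L.π z‖ + 1 / 2000) ^ 2 := by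
      gcongr
    by_contra hcon
    push Not at hcon
    nlinarith
  have z4 : ‖L.π i₁‖ ≤ 1 / 25 := by
    refine le_of_sq_le (by norm_num) ?_
    have h1 := L.π_le hz
    rw [map_add, L.π_smul, map_one, map_mul, map_mul, map_star, map_star] at h1
    have h2 : star (L.π z) * L.π z ≤ ((1 / 50 : ℝ) ^ 2) • (1 : L.Q) :=
      le_of_norm_le (sa_star_mul _) (by rw [← nsq]; gcongr)
    rw [nsq]
    refine norm_le_of_le (star_mul_self_nonneg _) (by norm_num)
      (h1.trans ((add_le_add h2 le_rfl).trans ?_))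
    rw [← add_smul]
    exact one_smul_mono (by norm_num)
  have z5 : ‖L.π i‖ ≤ 13 / 25 := by
    rw [hi, L.π_smul, map_add, norm_smul, Real.norm_of_nonneg (by norm_num)]
    have := norm_add_le (L.π i₁) (L.π i₂)
    have := (L.norm_π_le i₂).trans (norm_le_one_of_mem i₂0 i₂1)
    linarith
  have x1 : ‖L.π (star (c * W) * x)‖ ≤ 13 / 25 + 2 / 1000 := by
    rw [cW, map_add]
    refine (norm_add_le _ _).trans ?_
    have t1 := (L.norm_π_le _).trans hX₁
    have t2 : ‖L.π (i * (star y * (star c * x)))‖ ≤ 13 / 25 := by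
      rw [map_mul]
      refine (nmul_le_l _ ((L.norm_π_le _).trans ?_)).trans z5
      exact (nmul_le_r _ (by simpa using hy.norm_le)).trans ((nmul_le_r _ hc').trans hx.norm_le)
    linarith
  have x2 : ‖L.π (star x * x)‖ < 1 := by
    have h1 := mul_nsq_le (by norm_num) hL (L.π x)
    rw [← map_star, ← map_mul, ← map_mul, conj_KK ha a1 _ hx.mem] at h1
    have h2 := gξ x
    have h3 : ‖L.π (star (c * W) * x)‖ ^ 2 ≤ (13 / 25 + 2 / 1000) ^ 2 := by gcongr
    rw [map_mul, map_star, ← nsq]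
    linarith
  obtain ⟨x', hx', hg'⟩ := P.succ ha a1 a5 (mul_star_self_nonneg g) (τ := 3 / 5) (by norm_num)
    (by norm_num) (fun m hm =>
      L.π_eq_zero.mp (eq_zero_of_fix (by rw [← map_mul, hx.fix m hm]) x2))
  refine ⟨x', W', hx', hW', le_of_sq_le (by norm_num) ?_⟩
  have := hg' g ng le_rfl
  rw [← norm_star, star_mul, star_star] at this
  linarith

end Ctx

end Crest.Agent.R110
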