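import Crest.Agent.R110.Gen

/-!
# Row 110: partial isometries on spectral regions, success and lifting lemmas
-/

set_option autoImplicit false

open Set Filter Topology

namespace Crest.Agent.R110

variable {B : Type*} [CStarAlgebra B]

/-- contraction with range above `s`, isometric on the region above `t` -/
structure V (a : B) (s t : ℝ) (x : B) : Prop where
  norm_le : ‖x‖ ≤ 1
  mem : x ∈ Sp a (Ici s)
  fix : ∀ ξ ∈ Sp a (Ici t), star x * x * ξ = ξ

lemma V.mono {a x : B} {s t s' t' : ℝ} (h : V a s t x) (hs : s' ≤ s) (ht : t ≤ t') : V a s' t' x :=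
  ⟨h.norm_le, Sp_Ici_mono a hs h.mem, fun ξ hξ => h.fix ξ (Sp_Ici_mono a ht hξ)⟩

lemma norm_le_of_sq_eq {x n : B} (hn : IsSelfAdjoint n) (hn1 : ‖n‖ ≤ 1) (h : star x * x = n * n) :
    ‖x‖ ≤ 1 := by
  refine le_of_sq_le zero_le_one ?_
  rw [nsq, h]
  simpa using nmul_le hn1 hn1

lemma sq_rp_fix {a x ξ : B} (ha : IsSelfAdjoint a) {r t : ℝ} (hr : r < t)
    (h : star x * x = rp a r t * rp a r t) (hξ : ξ ∈ Sp a (Ici t)) : star x * x * ξ = ξ := by
  rw [h, mul_assoc, rp_fix ha hr hξ, rp_fix ha hr hξ]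

lemma V.of_sq {a x : B} (ha : IsSelfAdjoint a) {s r t : ℝ} (hr : r < t) (hx : x ∈ Sp a (Ici s))
    (h : star x * x = rp a r t * rp a r t) : V a s t x :=
  ⟨norm_le_of_sq_eq (rp_sa _ _ _) (norm_rp_le _ _ _) h, hx, fun _ hξ => sq_rp_fix ha hr h hξ⟩

lemma CRI.preimage (J : CI B) {R : Set J.Q} (hR : CRI R) : CRI (J.π ⁻¹' R) :=
  ⟨by simpa using hR.zero_mem, fun hx hy => by simpa using hR.add_mem hx hy,
    fun b hx => by simpa using hR.mul_mem (J.π b) hx, hR.isClosed.preimage J.continuous_π⟩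

/-- penalty operator -/
noncomputable def KK (b : B) (β γ : ℝ) (h : B) : B := (100 : ℝ) • (1 - rp b β γ) + h

lemma KK_sa (b : B) (β γ : ℝ) {h : B} (hh : IsSelfAdjoint h) : IsSelfAdjoint (KK b β γ h) :=
  (sa_smul _ ((IsSelfAdjoint.one B).sub (rp_sa _ _ _))).add hh

lemma KK_mul {b w : B} (hb : IsSelfAdjoint b) {β γ : ℝ} (hβ : β < γ) (h : B)
    (hw : w ∈ Sp b (Ici γ)) : KK b β γ h * w = h * w := by
  rw [KK, add_mul, smul_mul_assoc, sub_mul, rp_fix hb hβ hw]; simp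

lemma star_mul_KK {b w : B} (hb : IsSelfAdjoint b) {β γ : ℝ} (hβ : β < γ) {h : B}
    (hh : IsSelfAdjoint h) (hw : w ∈ Sp b (Ici γ)) : star w * KK b β γ h = star w * h := by
  have := congrArg star (KK_mul hb hβ h hw)
  rwa [star_mul, star_mul, (KK_sa b β γ hh).star_eq, hh.star_eq] at this

lemma conj_KK {b w : B} (hb : IsSelfAdjoint b) {β γ : ℝ} (hβ : β < γ) (h : B)
    (hw : w ∈ Sp b (Ici γ)) : star w * KK b β γ h * w = star w * h * w := by
  rw [mul_assoc, KK_mul hb hβ h hw, mul_assoc]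

lemma CI.π_KK (J : CI B) {b : B} (hb : IsSelfAdjoint b) (β γ : ℝ) (h : B) :
    J.π (KK b β γ h) = KK (J.π b) β γ (J.π h) := by
  rw [KK, KK, map_add, J.π_smul, map_sub, map_one, J.π_rp hb]

lemma Ctx.KK_mem (P : Ctx B) {b h : B} (hb : IsSelfAdjoint b) (hbC : b ∈ P.C) {β γ : ℝ}
    (h0 : 0 < β) (hβ : β < γ) (hh : h ∈ P.C) : (100 : ℝ) • (1 : B) - KK b β γ h ∈ P.C := by
  have : (100 : ℝ) • (1 : B) - KK b β γ h = (100 : ℝ) • rp b β γ - h := by rw [KK]; module
  rw [this]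
  exact P.sub_mem (P.smul_mem _ (P.rp_mem_C hb hbC h0 hβ)) hh

variable [PartialOrder B] [StarOrderedRing B]

lemma KK_mono (b : B) (β γ : ℝ) {h h' : B} (hh : h ≤ h') : KK b β γ h ≤ KK b β γ h' :=
  add_le_add le_rfl hh

lemma KK_ge_pen (b : B) (β γ : ℝ) {h : B} (hh : 0 ≤ h) :
    (100 : ℝ) • (1 - rp b β γ) ≤ KK b β γ h := le_add_of_nonneg_right hh

lemma KK_ge (b : B) (β γ : ℝ) (h : B) : h ≤ KK b β γ h :=
  le_add_of_nonneg_left (smul_nonneg (by norm_num) (sub_nonneg.mpr (rp_le_one _ _ _)))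

lemma sq_le_self {D : B} (h0 : 0 ≤ D) (h1 : D ≤ 1) : D * D ≤ D := by
  have := CStarAlgebra.pow_antitone h0 h1 (show 1 ≤ 2 by norm_num)
  simpa [sq] using this

/-- `x x⋆ ≤ u u` when `u x = x` and `x` is a contraction -/
lemma mul_star_le_of_fix {x u : B} (hu : IsSelfAdjoint u) (hx : ‖x‖ ≤ 1) (h : u * x = x) :
    x * star x ≤ u * u := by
  have := conj_le' (mul_star_le_one hx) u
  rw [hu.star_eq, mul_one] at this
  refine le_trans (le_of_eq ?_) this
  calc x * star x = (u * x) * star (u * x) := by rw [h]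
    _ = _ := by rw [star_mul, hu.star_eq]; noncomm_ring

namespace Ctx

variable (P : Ctx B)

lemma nsq_π_LowK {b h : B} (hb : IsSelfAdjoint b) (hbC : b ∈ P.C) {β γ τ : ℝ} (h0 : 0 < β)
    (hβ : β < γ) (hh : IsSelfAdjoint h) (hhC : h ∈ P.C) (hτ : τ < 100) :
    τ • (1 : (P.Low (KK b β γ h) τ).Q) ≤ (P.Low (KK b β γ h) τ).π (KK b β γ h) :=
  P.le_π_Low (KK_sa b β γ hh) hτ (P.KK_mem hb hbC h0 hβ hhC)

/-- success lemma -/
lemma succ {b h : B} (hb : IsSelfAdjoint b) {β γ γ' β' τ : ℝ} (hβ : β < γ) (hγ : γ' < β')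
    (hh : 0 ≤ h) (hτ0 : 0 ≤ τ) (hτ : τ ≤ 1)
    (hR : ∀ m ∈ Sp b (Ici γ'), m ∈ P.Low (KK b β γ h) τ) :
    ∃ w, V b β β' w ∧ ∀ g : B, ‖g‖ ≤ 1 → g * star g ≤ h → ‖star g * w‖ ^ 2 ≤ 5 / 4 * τ := by
  obtain ⟨γ'', h1, h2⟩ := exists_between hγ
  obtain ⟨y, hy, hyy⟩ := P.emb (hR _ (rp_mem b h1)) (rp_sa b γ'' β') (norm_rp_le _ _ _)
    (rp_mul_rp hb h1 le_rfl h2)
  have hK := Sp_conj_le (KK_sa b β γ (IsSelfAdjoint.of_nonneg hh)) hy
  set v := rp b β γ with hv
  have vsa : star v = v := star_rp _ _ _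
  have hy1 : star y * y ≤ 1 := by rw [hyy]; exact rp_sq_le_one _ _ _
  have hτ1 : τ • (star y * y) ≤ τ • (1 : B) := smul_le_smul_of_nonneg_left hy1 hτ0
  have D0 : 0 ≤ 1 - v := sub_nonneg.mpr (rp_le_one _ _ _)
  have D1 : 1 - v ≤ 1 := by simpa using rp_nonneg b β γ
  have k1 : star y * h * y ≤ τ • (star y * y) := (conj_le (KK_ge b β γ h) y).trans hK
  have k2 : star y * (1 - v) * y ≤ (τ / 100) • (star y * y) := by
    have := (conj_le (KK_ge_pen b β γ hh) y).trans hK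
    have := smul_le_smul_of_nonneg_left this (show (0 : ℝ) ≤ 1 / 100 by norm_num)
    rw [mul_smul_comm, smul_mul_assoc, smul_smul, smul_smul] at this
    norm_num at this
    convert this using 2
    ring
  have k3 : star y * y ≤ (50 / 49 : ℝ) • (star (v * y) * (v * y)) := by
    have a1 : 0 ≤ star ((1 - v) * y) * ((1 - v) * y) := star_mul_self_nonneg _
    have a2 : (τ / 100) • (star y * y) ≤ (1 / 100 : ℝ) • (star y * y) :=
      smul_le_smul_of_nonneg_right (by linarith) (star_mul_self_nonneg y)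
    have a3 := sub_nonneg.mpr (k2.trans a2)
    have a4 := smul_nonneg (show (0 : ℝ) ≤ 50 / 49 by norm_num)
      (add_nonneg a1 (smul_nonneg (show (0 : ℝ) ≤ 2 by norm_num) a3))
    rw [← sub_nonneg]
    convert a4 using 1
    have e1 : star ((1 - v) * y) * ((1 - v) * y)
        = star y * y - (2 : ℝ) • (star y * v * y) + star (v * y) * (v * y) := by
      simp only [star_mul, star_sub, star_one, vsa, two_smul]; noncomm_ring
    have e2 : star y * (1 - v) * y = star y * y - star y * v * y := by noncomm_ring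
    rw [e1, e2]
    module
  rw [hyy] at k3
  obtain ⟨w, hw, w1, w2⟩ := douglas_smul (cri_Sp b (Ici β))
    ((cri_Sp b _).mul_mem y (rp_mem b hβ)) (rp_sa b γ'' β') (by norm_num) k3
  refine ⟨w, V.of_sq hb h2 hw w1, fun g g1 g2 => ?_⟩
  have b1 := nsq_star_mul_le_smul (by norm_num) w2 g
  have b2 : ‖star g * w‖ = ‖star w * g‖ := by rw [← norm_star, star_mul, star_star]
  have b3 : ‖star (v * y) * g‖ ≤ ‖star g * y‖ + ‖(1 - v) * y‖ := by
    have : star (v * y) * g = star (star g * y - star g * ((1 - v) * y)) := by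
      simp only [star_mul, star_sub, star_one, star_star, vsa]; noncomm_ring
    rw [this, norm_star]
    exact (norm_sub_le _ _).trans (add_le_add le_rfl (nmul_le_r _ (by simpa using g1)))
  have b4 : ‖star g * y‖ ^ 2 ≤ τ :=
    (nsq_star_mul_le g2 y).trans (norm_le_of_le (star_left_conjugate_nonneg hh y) hτ0 (k1.trans hτ1))
  have b5 : ‖(1 - v) * y‖ ^ 2 ≤ τ / 100 := by
    have : star (1 - v) * (1 - v) ≤ 1 - v := by
      rw [star_sub, star_one, vsa]; exact sq_le_self D0 D1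
    refine (nsq_mul_le this y).trans (norm_le_of_le (star_left_conjugate_nonneg D0 y)
      (by positivity) (k2.trans (smul_le_smul_of_nonneg_left hy1 (by positivity))))
  have b6 : ‖star (v * y) * g‖ ^ 2 ≤ (‖star g * y‖ + ‖(1 - v) * y‖) ^ 2 := by gcongr
  rw [b2]
  nlinarith [sq_nonneg (‖star g * y‖ - 10 * ‖(1 - v) * y‖)]

/-- lifting lemma -/
lemma lift (J : CI B) {b : B} (hb : IsSelfAdjoint b) (hbC : b ∈ P.C) {β' β t t' : ℝ} (h0 : 0 < β')
    (hβ : β' < β) (hβt : β ≤ t) (ht : t < t') {y₀ : J.Q} (hy : V (J.π b) β t y₀) :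
    ∃ y, V b β' t' y ∧ J.π y * star (J.π y) ≤ (2 : ℝ) • (y₀ * star y₀) := by
  obtain ⟨t'', t1, t2⟩ := exists_between ht
  set F := rp (y₀ * star y₀) 0 (1 / 2) with hF
  have hR : CRI (Sp b (Ici β') ∩ J.π ⁻¹' {x | F * x = x}) :=
    (cri_Sp _ _).inter (CRI.preimage J (cri_fix F))
  obtain ⟨l, rfl⟩ := J.π_surj y₀
  set p := rp b t t'' with hp
  have psa : star p = p := star_rp _ _ _
  have pm : p ∈ Sp b (Ici t) := rp_mem b t1
  have pfix := hy.fix _ (J.π_Sp hb pm)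
  set z := rp b β' β * l * p with hz
  have zm : z ∈ Sp b (Ici β') := (cri_Sp _ _).mul_mem _ ((cri_Sp _ _).mul_mem _ (rp_mem b hβ))
  have πz : J.π z = J.π l * J.π p := by
    rw [hz, map_mul, map_mul, J.π_rp hb, rp_fix (J.π_sa hb) hβ hy.mem]
  have zR : z ∈ Sp b (Ici β') ∩ J.π ⁻¹' {x | F * x = x} := by
    refine ⟨zm, ?_⟩
    show F * J.π z = J.π z
    refine rp_fix (sa_mul_star _) (by norm_num) (mem_Sp_of_fix (sa_mul_star _) ?_ (by norm_num))
    rw [πz]
    calc J.π l * star (J.π l) * (J.π l * J.π p) = J.π l * (star (J.π l) * J.π l * J.π p) := by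
          noncomm_ring
      _ = _ := by rw [pfix]
  have hj : p * p - star z * z ∈ J := by
    rw [← J.π_eq, map_mul, map_mul, map_star, πz, star_mul, ← map_star J.π p, psa]
    calc J.π p * J.π p = J.π p * (star (J.π l) * J.π l * J.π p) := by rw [pfix]
      _ = _ := by noncomm_ring
  have pm' : p ∈ Sp b (Ici β') := Sp_Ici_mono b (by linarith) pm
  have hu : p * p * p ∈ P.Gen _ hR := by
    have e : p * p * p = p * star z * z + p * (p * p - star z * z) := by noncomm_ring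
    rw [e]
    refine CI.add_mem _ (CI.mul_left _ _ (P.mem_Gen hR zR (P.mem_of_Sp hb hbC h0 zm)))
      (P.mem_Gen hR ⟨(cri_Sp _ _).mul_mem _ pm', ?_⟩ (P.mul_right _ (P.mem_of_Sp hb hbC h0 pm')))
    show F * J.π _ = J.π _
    rw [J.π_eq_zero.mpr (J.mul_left _ hj), mul_zero]
  have pn : p * rp b t'' t' = rp b t'' t' := rp_mul_rp hb t1 le_rfl t2
  obtain ⟨y, ⟨y1, y2⟩, y3⟩ := P.emb hu (rp_sa b t'' t') (norm_rp_le _ _ _)
    (by rw [mul_assoc, mul_assoc, pn, pn, pn])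
  have hV := V.of_sq hb t2 y1 y3
  refine ⟨y, hV, (mul_star_le_of_fix (rp_sa _ _ _) ((J.norm_π_le y).trans hV.norm_le) y2).trans ?_⟩
  refine (sq_le_self (rp_nonneg _ _ _) (rp_le_one _ _ _)).trans ?_
  have e : (2 : ℝ) • (J.π l * star (J.π l)) = cfc (fun x : ℝ => 2 * x) (J.π l * star (J.π l)) := by
    rw [← smul_cfc_eq _ 2 continuous_id (k := fun x : ℝ => 2 * x) (fun _ => rfl), cfc_id ℝ _ (sa_mul_star _)]
  rw [e]
  refine cfc_le_pos (mul_star_self_nonneg _) (continuous_rampf _ _) (by fun_prop) fun x hx => ?_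
  refine max_le (by positivity) ((min_le_right _ _).trans (le_of_eq ?_))
  ring

end Ctx

end Crest.Agent.R110
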